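import Mathlib

/-!
# Row 91: molecules, weakly unconditionally summable families, the greedy lemma
-/

set_option autoImplicit false

namespace Crest.Agent.R91

open Finset Filter Pointwise

variable {V : Type*}

/-- The pairing of a function with a finitely supported measure. -/
noncomputable def pair : (V → ℝ) →ₗ[ℝ] (V →₀ ℝ) →ₗ[ℝ] ℝ := Finsupp.bilinearCombination ℝ ℝ

theorem pair_apply (f : V → ℝ) (z : V →₀ ℝ) : pair f z = ∑ v ∈ z.support, z v * f v := by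
  simp [pair, Finsupp.linearCombination_apply, Finsupp.sum]

theorem pair_single (f : V → ℝ) (v : V) (a : ℝ) : pair f (Finsupp.single v a) = a * f v := by
  simp [pair]

theorem pair_congr {f g : V → ℝ} {z : V →₀ ℝ} (h : ∀ v ∈ z.support, f v = g v) :
    pair f z = pair g z := by
  rw [pair_apply, pair_apply]
  exact sum_congr rfl fun v hv => by rw [h v hv]

theorem pair_mul (φ f : V → ℝ) (z : V →₀ ℝ) : pair (φ * f) z = pair f (φ • z) := by
  rw [pair_apply, pair_apply]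
  have hsub : (φ • z).support ⊆ z.support := by
    intro v hv
    rw [Finsupp.mem_support_iff] at hv ⊢
    intro h
    apply hv
    simp [h]
  rw [sum_subset hsub (f := fun v => (φ • z) v * f v)]
  · exact sum_congr rfl fun v _ => by simp; ring
  · intro v _ hv
    rw [Finsupp.notMem_support_iff] at hv
    rw [hv, zero_mul]

/-- total variation of a molecule -/
noncomputable def tv (z : V →₀ ℝ) : ℝ := ∑ v ∈ z.support, |z v|

theorem tv_nonneg (z : V →₀ ℝ) : 0 ≤ tv z := sum_nonneg fun _ _ => abs_nonneg _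

theorem abs_pair_le {f : V → ℝ} {a : ℝ} (h : ∀ v, |f v| ≤ a) (z : V →₀ ℝ) :
    |pair f z| ≤ tv z * a := by
  rw [pair_apply, tv, sum_mul]
  refine (abs_sum_le_sum_abs _ _).trans (sum_le_sum fun v _ => ?_)
  rw [abs_mul]
  exact mul_le_mul_of_nonneg_left (h v) (abs_nonneg _)

/-- `z` is weakly unconditionally summable, uniformly over the class `𝒞`. -/
def WUC (𝒞 : Set (V → ℝ)) (z : ℕ → V →₀ ℝ) : Prop :=
  ∃ W : ℝ, ∀ f ∈ 𝒞, ∀ s : Finset ℕ, ∑ i ∈ s, |pair f (z i)| ≤ W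

/-- `z` tends to zero uniformly over the class `𝒞`. -/
def Tame (𝒞 : Set (V → ℝ)) (z : ℕ → V →₀ ℝ) : Prop :=
  ∀ c : ℝ, 0 < c → ∀ᶠ i in atTop, ∀ f ∈ 𝒞, |pair f (z i)| ≤ c

theorem WUC.mono {𝒞 𝒟 : Set (V → ℝ)} {z : ℕ → V →₀ ℝ} (h : WUC 𝒟 z) (hs : 𝒞 ⊆ 𝒟) :
    WUC 𝒞 z := by
  obtain ⟨W, hW⟩ := h
  exact ⟨W, fun f hf => hW f (hs hf)⟩

theorem WUC.of_smul {𝒞 𝒟 : Set (V → ℝ)} {z : ℕ → V →₀ ℝ} (h : WUC 𝒟 z) {a : ℝ} (ha : 0 < a)
    (hs : ∀ f ∈ 𝒞, a • f ∈ 𝒟) : WUC 𝒞 z := by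
  obtain ⟨W, hW⟩ := h
  refine ⟨W / a, fun f hf s => ?_⟩
  have := hW _ (hs f hf) s
  simp only [map_smul, LinearMap.smul_apply, smul_eq_mul, abs_mul, abs_of_pos ha,
    ← mul_sum] at this
  rw [le_div_iff₀ ha]
  linarith

theorem WUC.of_mul {𝒞 𝒟 : Set (V → ℝ)} {z : ℕ → V →₀ ℝ} (h : WUC 𝒟 z) {φ : V → ℝ}
    (hs : ∀ f ∈ 𝒞, φ * f ∈ 𝒟) : WUC 𝒞 (fun i => φ • z i) := by
  obtain ⟨W, hW⟩ := h
  refine ⟨W, fun f hf s => ?_⟩
  have := hW _ (hs f hf) s
  simpa only [pair_mul] using this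

theorem Tame.mono {𝒞 𝒟 : Set (V → ℝ)} {z : ℕ → V →₀ ℝ} (h : Tame 𝒟 z) (hs : 𝒞 ⊆ 𝒟) :
    Tame 𝒞 z := fun c hc => (h c hc).mono fun _ hi f hf => hi f (hs hf)

theorem tame_zero (z : ℕ → V →₀ ℝ) : Tame (0 : Set (V → ℝ)) z := by
  intro c hc
  refine Eventually.of_forall fun i f hf => ?_
  rw [Set.mem_zero.1 hf]
  simpa using hc.le

theorem Tame.add {𝒞 𝒟 : Set (V → ℝ)} {z : ℕ → V →₀ ℝ} (h : Tame 𝒞 z) (h' : Tame 𝒟 z) :
    Tame (𝒞 + 𝒟) z := by
  intro c hc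
  filter_upwards [h (c / 2) (by positivity), h' (c / 2) (by positivity)] with i h1 h2
  rintro _ ⟨f, hf, g, hg, rfl⟩
  have := h1 f hf
  have := h2 g hg
  simp only [map_add, LinearMap.add_apply]
  exact (abs_add_le _ _).trans (by linarith)

theorem Tame.nsmul {𝒞 : Set (V → ℝ)} {z : ℕ → V →₀ ℝ} (h : Tame 𝒞 z) (n : ℕ) :
    Tame (n • 𝒞) z := by
  induction n with
  | zero => rw [zero_nsmul]; exact tame_zero z
  | succ n ih => rw [succ_nsmul]; exact ih.add h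

theorem Tame.biUnion {ι : Type*} {I : Set ι} (hI : I.Finite) {𝒞 : ι → Set (V → ℝ)}
    {z : ℕ → V →₀ ℝ} (h : ∀ m ∈ I, Tame (𝒞 m) z) : Tame (⋃ m ∈ I, 𝒞 m) z := by
  intro c hc
  have := (eventually_all_finite hI).2 fun m hm => h m hm c hc
  filter_upwards [this] with i hi f hf
  simp only [Set.mem_iUnion] at hf
  obtain ⟨m, hm, hf⟩ := hf
  exact hi m hm f hf

/-- finitely many tame classes: sums with bounded coefficients -/
theorem Tame.finsum {ι : Type*} (M : Finset ι) {𝒞 : ι → Set (V → ℝ)} (w : ι → ℝ)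
    {z : ℕ → V →₀ ℝ} (h : ∀ m ∈ M, Tame (𝒞 m) z) {c : ℝ} (hc : 0 < c) :
    ∀ᶠ i in atTop, ∀ (M' : Finset ι) (a : ι → ℝ) (f : ι → V → ℝ), M' ⊆ M →
      (∀ m ∈ M', |a m| ≤ w m ∧ f m ∈ 𝒞 m) → |pair (∑ m ∈ M', a m • f m) (z i)| ≤ c := by
  set A := ∑ m ∈ M, |w m| with hA
  have hA0 : 0 ≤ A := sum_nonneg fun _ _ => abs_nonneg _
  have := (eventually_all_finset M).2 fun m hm => h m hm (c / (A + 1)) (by positivity)
  filter_upwards [this] with i hi M' a f hM' haf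
  simp only [map_sum, map_smul, LinearMap.sum_apply, LinearMap.smul_apply, smul_eq_mul]
  calc |∑ m ∈ M', a m * pair (f m) (z i)| ≤ ∑ m ∈ M', |w m| * (c / (A + 1)) := by
        refine (abs_sum_le_sum_abs _ _).trans (sum_le_sum fun m hm => ?_)
        rw [abs_mul]
        exact mul_le_mul ((haf m hm).1.trans (le_abs_self _)) (hi m (hM' hm) _ (haf m hm).2)
          (abs_nonneg _) (abs_nonneg _)
    _ ≤ A * (c / (A + 1)) := by
        rw [← sum_mul]
        exact mul_le_mul_of_nonneg_right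
          (sum_le_sum_of_subset_of_nonneg hM' fun _ _ _ => abs_nonneg _) (by positivity)
    _ ≤ c := by
        rw [← mul_div_assoc, div_le_iff₀ (by positivity)]
        nlinarith

/-- The greedy (gliding hump) lemma. -/
theorem greedy {z : ℕ → V →₀ ℝ} (P : (V → ℝ) → Prop) {c W : ℝ} (hc : 0 < c) (h0 : P 0)
    (hW : ∀ F, P F → ∀ s : Finset ℕ, ∑ i ∈ s, |pair F (z i)| ≤ W)
    (step : ∀ F, P F → ∀ s : Finset ℕ, ∃ F' g : V → ℝ, ∃ i, i ∉ s ∧
      ∑ j ∈ s, |pair F (z j)| - c ≤ ∑ j ∈ s, |pair F' (z j)| ∧ 2 * c ≤ |pair g (z i)| ∧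
      P (F' + g) ∧ P (F' - g)) : False := by
  have key : ∀ n : ℕ, ∃ F, ∃ s : Finset ℕ, P F ∧ n * c ≤ ∑ i ∈ s, |pair F (z i)| := by
    intro n
    induction n with
    | zero => exact ⟨0, ∅, h0, by simp⟩
    | succ n ih =>
      obtain ⟨F, s, hF, hn⟩ := ih
      obtain ⟨F', g, i, hi, h1, h2, hp, hm⟩ := step F hF s
      have e1 : 2 * ∑ j ∈ s, |pair F' (z j)| ≤
          ∑ j ∈ s, |pair (F' + g) (z j)| + ∑ j ∈ s, |pair (F' - g) (z j)| := by
        rw [mul_sum, ← sum_add_distrib]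
        refine sum_le_sum fun j _ => ?_
        simp only [map_add, map_sub, LinearMap.add_apply, LinearMap.sub_apply]
        have := abs_add_le (pair F' (z j) + pair g (z j)) (pair F' (z j) - pair g (z j))
        rw [show pair F' (z j) + pair g (z j) + (pair F' (z j) - pair g (z j)) =
          2 * pair F' (z j) by ring, abs_mul, abs_two] at this
        exact this
      have e2 : 2 * |pair g (z i)| ≤ |pair (F' + g) (z i)| + |pair (F' - g) (z i)| := by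
        simp only [map_add, map_sub, LinearMap.add_apply, LinearMap.sub_apply]
        have := abs_sub (pair F' (z i) + pair g (z i)) (pair F' (z i) - pair g (z i))
        rw [show pair F' (z i) + pair g (z i) - (pair F' (z i) - pair g (z i)) =
          2 * pair g (z i) by ring, abs_mul, abs_two] at this
        exact this
      by_cases hcase : ((n + 1 : ℕ) : ℝ) * c ≤ ∑ j ∈ insert i s, |pair (F' + g) (z j)|
      · exact ⟨_, _, hp, hcase⟩
      · refine ⟨_, insert i s, hm, ?_⟩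
        rw [sum_insert hi] at hcase ⊢
        push_cast at hcase ⊢
        linarith
  obtain ⟨n, hn⟩ := exists_nat_gt (W / c)
  obtain ⟨F, s, hF, h⟩ := key n
  have := hW F hF s
  rw [div_lt_iff₀ hc] at hn
  linarith

theorem not_tame {𝒞 : Set (V → ℝ)} {z : ℕ → V →₀ ℝ} (h : ¬ Tame 𝒞 z) :
    ∃ c : ℝ, 0 < c ∧ ∃ᶠ i in atTop, ∃ f ∈ 𝒞, 4 * c < |pair f (z i)| := by
  unfold Tame at h
  push Not at h
  obtain ⟨c, hc, h⟩ := h
  refine ⟨c / 4, by positivity, ?_⟩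
  refine h.mono fun i hi => ?_
  obtain ⟨f, hf, hlt⟩ := hi
  exact ⟨f, hf, by linarith⟩

theorem eventually_notMem (s : Finset ℕ) : ∀ᶠ i in atTop, i ∉ s := by
  rw [← Nat.cofinite_eq_atTop]
  exact s.eventually_cofinite_notMem

/-- weighted `ℓ¹`-sum of classes -/
def L1Sum {ι : Type*} (𝒞 : ι → Set (V → ℝ)) (w : ι → ℝ) : Set (V → ℝ) :=
  {F | ∃ (M : Finset ι) (a : ι → ℝ) (f : ι → V → ℝ),
    (∀ m ∈ M, |a m| ≤ w m ∧ f m ∈ 𝒞 m) ∧ F = ∑ m ∈ M, a m • f m}

theorem smul_mem_L1Sum {ι : Type*} {𝒞 : ι → Set (V → ℝ)} {w : ι → ℝ} (hw : ∀ m, 0 < w m)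
    {m : ι} {f : V → ℝ} (hf : f ∈ 𝒞 m) : w m • f ∈ L1Sum 𝒞 w :=
  ⟨{m}, w, fun _ => f, by simp [hf, abs_of_pos (hw m)], by simp⟩

theorem tame_L1Sum {ι : Type*} {𝒞 : ι → Set (V → ℝ)} {w : ι → ℝ} (hw : ∀ m, 0 < w m)
    {z : ℕ → V →₀ ℝ} (h : (∀ m, WUC (𝒞 m) z) → ∀ m, Tame (𝒞 m) z) (hz : WUC (L1Sum 𝒞 w) z) :
    Tame (L1Sum 𝒞 w) z := by
  classical
  have ht := h fun m => hz.of_smul (hw m) fun f hf => smul_mem_L1Sum hw hf
  by_contra hn
  obtain ⟨c, hc, hfr⟩ := not_tame hn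
  obtain ⟨W, hW⟩ := hz
  refine greedy (z := z) (· ∈ L1Sum 𝒞 w) hc ⟨∅, 0, 0, by simp, by simp⟩ hW ?_
  rintro F ⟨M, a, f, haf, rfl⟩ s
  obtain ⟨i, ⟨_, ⟨M', a', f', haf', rfl⟩, hlt⟩, hi1, hi2⟩ :=
    (hfr.and_eventually ((Tame.finsum M w (fun m _ => ht m) hc).and (eventually_notMem s))).exists
  refine ⟨_, ∑ m ∈ M' \ M, a' m • f' m, i, hi2, sub_le_self _ hc.le, ?_, ?_, ?_⟩
  · have h1 := hi1 (M' ∩ M) a' f' inter_subset_right fun m hm => haf' m (mem_inter.1 hm).1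
    rw [← sum_inter_add_sum_sdiff M' M, map_add, LinearMap.add_apply] at hlt
    have := abs_add_le (pair (∑ m ∈ M' ∩ M, a' m • f' m) (z i))
      (pair (∑ m ∈ M' \ M, a' m • f' m) (z i))
    linarith
  · refine ⟨M ∪ (M' \ M), fun m => if m ∈ M then a m else a' m,
      fun m => if m ∈ M then f m else f' m, ?_, ?_⟩
    · intro m hm
      by_cases h1 : m ∈ M
      · simpa [h1] using haf m h1
      · have : m ∈ M' := by simpa [h1] using hm
        simpa [h1] using haf' m this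
    · rw [sum_union disjoint_sdiff]
      congr 1
      · exact sum_congr rfl fun m hm => by simp [hm]
      · exact sum_congr rfl fun m hm => by simp [(mem_sdiff.1 hm).2]
  · refine ⟨M ∪ (M' \ M), fun m => if m ∈ M then a m else -a' m,
      fun m => if m ∈ M then f m else f' m, ?_, ?_⟩
    · intro m hm
      by_cases h1 : m ∈ M
      · simpa [h1] using haf m h1
      · have : m ∈ M' := by simpa [h1] using hm
        simpa [h1] using haf' m this
    · rw [sum_union disjoint_sdiff, sub_eq_add_neg, ← sum_neg_distrib]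
      congr 1
      · exact sum_congr rfl fun m hm => by simp [hm]
      · exact sum_congr rfl fun m hm => by simp [(mem_sdiff.1 hm).2]

end Crest.Agent.R91
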