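import Crest.Agent.R91.Basic

/-!
# Row 91: the single-scale tower of function classes
-/

set_option autoImplicit false

namespace Crest.Agent.R91

open Finset Filter Pointwise Topology

variable {V : Type*} [PseudoMetricSpace V]

/-- Lipschitz and bounded by the same constant -/
def Bd (C : ℝ) (f : V → ℝ) : Prop := (∀ u v, |f u - f v| ≤ C * dist u v) ∧ ∀ v, |f v| ≤ C

theorem Bd.mono {C C' : ℝ} {f : V → ℝ} (h : Bd C f) (hC : C ≤ C') : Bd C' f :=
  ⟨fun u v => (h.1 u v).trans (mul_le_mul_of_nonneg_right hC dist_nonneg),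
    fun v => (h.2 v).trans hC⟩

theorem bd_zero {C : ℝ} (hC : 0 ≤ C) : Bd C (0 : V → ℝ) :=
  ⟨fun u v => by simp; positivity, fun v => by simpa⟩

theorem Bd.add {C C' : ℝ} {f g : V → ℝ} (h : Bd C f) (h' : Bd C' g) : Bd (C + C') (f + g) := by
  refine ⟨fun u v => ?_, fun v => ?_⟩
  · have := h.1 u v
    have := h'.1 u v
    have := abs_add_le (f u - f v) (g u - g v)
    simp only [Pi.add_apply]
    rw [show f u + g u - (f v + g v) = f u - f v + (g u - g v) by ring]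
    linarith
  · have := h.2 v
    have := h'.2 v
    have := abs_add_le (f v) (g v)
    simp only [Pi.add_apply]
    linarith

theorem Bd.smul {C : ℝ} {f : V → ℝ} (h : Bd C f) {a : ℝ} (ha : |a| ≤ 1) : Bd C (a • f) := by
  refine ⟨fun u v => ?_, fun v => ?_⟩
  · simp only [Pi.smul_apply, smul_eq_mul, ← mul_sub, abs_mul]
    have := h.1 u v
    have := abs_nonneg (f u - f v)
    nlinarith
  · simp only [Pi.smul_apply, smul_eq_mul, abs_mul]
    have := h.2 v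
    have := abs_nonneg (f v)
    nlinarith

theorem Bd.sub {C C' : ℝ} {f g : V → ℝ} (h : Bd C f) (h' : Bd C' g) : Bd (C + C') (f - g) := by
  have := h.add (h'.smul (a := -1) (by simp))
  simpa [sub_eq_add_neg] using this

theorem Bd.mul {C Λ : ℝ} {f ψ : V → ℝ} (h : Bd C f) (hΛ : 0 ≤ Λ) (h1 : ∀ v, |ψ v| ≤ 1)
    (h2 : ∀ u v, |ψ u - ψ v| ≤ Λ * dist u v) : Bd (C * (1 + Λ)) (ψ * f) := by
  refine ⟨fun u v => ?_, fun v => ?_⟩
  · simp only [Pi.mul_apply]
    have hC : 0 ≤ C := (abs_nonneg _).trans (h.2 v)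
    rw [show ψ u * f u - ψ v * f v = ψ u * (f u - f v) + (ψ u - ψ v) * f v by ring]
    refine (abs_add_le _ _).trans ?_
    rw [abs_mul, abs_mul]
    have e1 : |ψ u| * |f u - f v| ≤ 1 * (C * dist u v) :=
      mul_le_mul (h1 u) (h.1 u v) (abs_nonneg _) zero_le_one
    have e2 : |ψ u - ψ v| * |f v| ≤ Λ * dist u v * C :=
      mul_le_mul (h2 u v) (h.2 v) (abs_nonneg _) (by positivity)
    nlinarith
  · simp only [Pi.mul_apply, abs_mul]
    have hC : 0 ≤ C := (abs_nonneg _).trans (h.2 v)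
    have e1 : |ψ v| * |f v| ≤ 1 * C := mul_le_mul (h1 v) (h.2 v) (abs_nonneg _) zero_le_one
    nlinarith

/-- data of a single-scale tower -/
structure TowerData (V : Type*) [PseudoMetricSpace V] where
  τ : ℕ → V → ℝ
  τ_lip : ∀ N u v, |τ N u - τ N v| ≤ dist u v
  τ_anti : ∀ v, Antitone fun N => τ N v
  τ_lim : ∀ v, Tendsto (fun N => τ N v) atTop (𝓝 0)
  lo : ℝ
  lo_pos : 0 < lo
  B : ℕ → Set (V → ℝ)
  C0 : ℝ
  C0_pos : 0 < C0
  B_bd : ∀ n, ∀ f ∈ B n, Bd C0 f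
  B_van : ∀ n, ∀ f ∈ B n, ∀ v, τ n v ≤ lo → f v = 0
  B_tame : ∀ n z, WUC (B n) z → Tame (B n) z

namespace TowerData

variable (D : TowerData V)

noncomputable def θ (j : ℕ) : ℝ := D.lo * (1 / 2 + (1 / 2) ^ (j + 1))

theorem θ_zero : D.θ 0 = D.lo := by simp [θ]; ring

theorem θ_pos (j : ℕ) : 0 < D.θ j := by
  have := D.lo_pos
  unfold θ
  positivity

theorem θ_lt (j : ℕ) : D.θ (j + 1) < D.θ j := by
  have := D.lo_pos
  unfold θ
  have h : (0 : ℝ) < (1 / 2) ^ (j + 1) := by positivity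
  rw [pow_succ _ (j + 1)]
  nlinarith

noncomputable def Λ (j : ℕ) : ℝ := (D.θ j - D.θ (j + 1))⁻¹

theorem Λ_pos (j : ℕ) : 0 < D.Λ j := inv_pos.2 (sub_pos.2 (D.θ_lt j))

/-- the cut-off `φ_{j+1}(τ_m)` -/
noncomputable def φ (j m : ℕ) (v : V) : ℝ := max 0 (min 1 (D.Λ j * (D.τ m v - D.θ (j + 1))))

theorem φ_nonneg (j m : ℕ) (v : V) : 0 ≤ D.φ j m v := le_max_left _ _

theorem φ_le (j m : ℕ) (v : V) : D.φ j m v ≤ 1 := max_le zero_le_one (min_le_left _ _)

theorem φ_eq_zero {j m : ℕ} {v : V} (h : D.τ m v ≤ D.θ (j + 1)) : D.φ j m v = 0 :=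
  max_eq_left ((min_le_right _ _).trans
    (mul_nonpos_of_nonneg_of_nonpos (D.Λ_pos j).le (sub_nonpos.2 h)))

theorem φ_eq_one {j m : ℕ} {v : V} (h : D.θ j ≤ D.τ m v) : D.φ j m v = 1 := by
  have h1 : 1 ≤ D.Λ j * (D.τ m v - D.θ (j + 1)) := by
    rw [Λ, ← div_eq_inv_mul, le_div_iff₀ (sub_pos.2 (D.θ_lt j))]
    linarith
  rw [φ, min_eq_left h1, max_eq_right zero_le_one]

theorem φ_lip (j m : ℕ) (u v : V) : |D.φ j m u - D.φ j m v| ≤ D.Λ j * dist u v := by
  unfold φ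
  refine (abs_max_sub_max_le_max _ _ _ _).trans (max_le (by simp; have := D.Λ_pos j; positivity) ?_)
  refine (abs_min_sub_min_le_max _ _ _ _).trans (max_le (by simp; have := D.Λ_pos j; positivity) ?_)
  rw [← mul_sub, abs_mul, abs_of_pos (D.Λ_pos j), sub_sub_sub_cancel_right]
  exact mul_le_mul_of_nonneg_left (D.τ_lip m u v) (D.Λ_pos j).le

/-- multipliers -/
def Mult (j N : ℕ) : Set (V → ℝ) := insert 1 (D.φ j '' Set.Iic N)

theorem mult_finite (j N : ℕ) : (D.Mult j N).Finite :=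
  ((Set.finite_Iic N).image _).insert _

theorem mult_mono (j : ℕ) {N N' : ℕ} (h : N ≤ N') : D.Mult j N ⊆ D.Mult j N' :=
  Set.insert_subset_insert (Set.image_mono (Set.Iic_subset_Iic.2 h))

def Atoms (j N : ℕ) (T : Set (V → ℝ)) : Set (V → ℝ) :=
  {g | ∃ a : ℝ, |a| ≤ 1 ∧ ∃ ψ ∈ D.Mult j N, ∃ t ∈ T, g = a • (ψ * t)}

/-- initial segments -/
def T : ℕ → ℕ → Set (V → ℝ)
  | 0, N => insert 0 (⋃ n ∈ Set.Iic N, D.B n)
  | j + 1, N => (4 * N + 4) • D.Atoms j N (T j N)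

omit [PseudoMetricSpace V] in
theorem zero_mem_nsmul {A : Set (V → ℝ)} (h : (0 : V → ℝ) ∈ A) (n : ℕ) : (0 : V → ℝ) ∈ n • A := by
  simpa using Set.nsmul_mem_nsmul (n := n) h

theorem zero_mem_T : ∀ j N, (0 : V → ℝ) ∈ D.T j N
  | 0, _ => Set.mem_insert _ _
  | j + 1, N => zero_mem_nsmul (A := D.Atoms j N (D.T j N))
      ⟨0, by simp, 1, Set.mem_insert _ _, 0, zero_mem_T j N, by simp⟩ _

theorem zero_mem_atoms (j N : ℕ) : (0 : V → ℝ) ∈ D.Atoms j N (D.T j N) :=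
  ⟨0, by simp, 1, Set.mem_insert _ _, 0, D.zero_mem_T j N, by simp⟩

theorem atoms_mono (j : ℕ) {N N' : ℕ} (h : N ≤ N') {T T' : Set (V → ℝ)} (hT : T ⊆ T') :
    D.Atoms j N T ⊆ D.Atoms j N' T' := by
  rintro _ ⟨a, ha, ψ, hψ, t, ht, rfl⟩
  exact ⟨a, ha, ψ, D.mult_mono j h hψ, t, hT ht, rfl⟩

omit [PseudoMetricSpace V] in
theorem nsmul_mono' {A A' : Set (V → ℝ)} (h0 : (0 : V → ℝ) ∈ A') (h : A ⊆ A') {n n' : ℕ}
    (hn : n ≤ n') : n • A ⊆ n' • A' :=
  (Set.nsmul_subset_nsmul_left h).trans (Set.nsmul_subset_nsmul_right h0 hn)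

theorem T_mono : ∀ (j : ℕ) {N N' : ℕ}, N ≤ N' → D.T j N ⊆ D.T j N'
  | 0, _, _, h => Set.insert_subset_insert
      (Set.biUnion_subset_biUnion_left (Set.Iic_subset_Iic.2 h))
  | j + 1, _, N', h => nsmul_mono' (D.zero_mem_atoms j N') (D.atoms_mono j h (T_mono j h))
      (by omega)

theorem atoms_sub_T (j N : ℕ) : D.Atoms j N (D.T j N) ⊆ D.T (j + 1) N := by
  have := nsmul_mono' (D.zero_mem_atoms j N) (subset_refl _) (n := 1) (n' := 4 * N + 4) (by omega)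
  rwa [one_nsmul] at this

noncomputable def C : ℕ → ℝ
  | 0 => D.C0
  | j + 1 => 6 * C j * (1 + D.Λ j)

theorem C_succ (j : ℕ) : D.C (j + 1) = 6 * D.C j * (1 + D.Λ j) := rfl

theorem C_pos : ∀ j, 0 < D.C j
  | 0 => D.C0_pos
  | j + 1 => by
    have := C_pos j
    have := D.Λ_pos j
    rw [C_succ]
    positivity

/-- `S` witnesses `f ∈ 𝒫 j` -/
structure Wit (j : ℕ) (f : V → ℝ) (S : ℕ → V → ℝ) : Prop where
  ev : ∀ᶠ N in atTop, S N = f
  mem : ∀ N, S N ∈ D.T j N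
  bd : ∀ N, Bd (D.C j) (S N)
  eq : ∀ N v, D.τ (N + 1) v ≤ D.θ j → f v = S N v

/-- the classes of the tower -/
def P (j : ℕ) : Set (V → ℝ) := {f | ∃ S, D.Wit j f S}

theorem bd_of_mem_P {j : ℕ} {f : V → ℝ} (h : f ∈ D.P j) : Bd (D.C j) f := by
  obtain ⟨S, hS⟩ := h
  obtain ⟨N, hN⟩ := hS.ev.exists
  exact hN ▸ hS.bd N

theorem B_sub_P (n : ℕ) : D.B n ⊆ D.P 0 := by
  intro f hf
  refine ⟨fun N => if n ≤ N then f else 0, ?_, fun N => ?_, fun N => ?_, fun N v hv => ?_⟩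
  · filter_upwards [eventually_ge_atTop n] with N hN
    simp [hN]
  · split_ifs with h
    · exact Set.mem_insert_of_mem _ (Set.mem_biUnion (Set.mem_Iic.2 h) hf)
    · exact D.zero_mem_T 0 N
  · split_ifs with h
    · exact D.B_bd n f hf
    · exact bd_zero D.C0_pos.le
  · split_ifs with h
    · rfl
    · rw [θ_zero] at hv
      exact D.B_van n f hf v ((D.τ_anti v (by omega : N + 1 ≤ n)).trans hv)

theorem mul_mem_P {j N₀ : ℕ} {ψ : V → ℝ} (hψ : ψ ∈ D.Mult j N₀) {f : V → ℝ} (hf : f ∈ D.P j) :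
    ψ * f ∈ D.P (j + 1) := by
  obtain ⟨S, hS⟩ := hf
  have hC := D.C_pos j
  have hΛ := D.Λ_pos j
  rcases hψ with rfl | ⟨m, -, rfl⟩
  · refine ⟨S, by simpa using hS.ev, fun N => ?_, fun N => (hS.bd N).mono ?_, fun N v hv => ?_⟩
    · exact D.atoms_sub_T j N ⟨1, by simp, 1, Set.mem_insert _ _, S N, hS.mem N, by simp⟩
    · rw [C_succ]
      nlinarith
    · simpa using hS.eq N v (hv.trans (D.θ_lt j).le)
  · refine ⟨fun N => if m ≤ N then D.φ j m * S N else 0, ?_, fun N => ?_, fun N => ?_,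
      fun N v hv => ?_⟩
    · filter_upwards [eventually_ge_atTop m, hS.ev] with N hN h
      simp [hN, h]
    · split_ifs with h
      · exact D.atoms_sub_T j N ⟨1, by simp, _, Set.mem_insert_of_mem _ ⟨m, h, rfl⟩, S N,
          hS.mem N, by simp⟩
      · exact D.zero_mem_T _ N
    · split_ifs with h
      · refine ((hS.bd N).mul hΛ.le (fun v => ?_) (D.φ_lip j m)).mono ?_
        · rw [abs_of_nonneg (D.φ_nonneg j m v)]
          exact D.φ_le j m v
        · rw [C_succ]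
          nlinarith
      · exact bd_zero (D.C_pos _).le
    · split_ifs with h
      · simp [hS.eq N v (hv.trans (D.θ_lt j).le)]
      · simp [D.φ_eq_zero ((D.τ_anti v (by omega : N + 1 ≤ m)).trans hv)]

theorem tame_T : ∀ (j N : ℕ) (z : ℕ → V →₀ ℝ), WUC (D.P j) z → Tame (D.T j N) z
  | 0, N, z, hz => by
    have h1 : Tame (⋃ n ∈ Set.Iic N, D.B n) z :=
      Tame.biUnion (Set.finite_Iic N) fun n _ => D.B_tame n z (hz.mono (D.B_sub_P n))
    intro c hc
    filter_upwards [h1 c hc] with i hi f hf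
    rcases hf with rfl | hf
    · simpa using hc.le
    · exact hi f hf
  | j + 1, N, z, hz => by
    refine Tame.nsmul (fun c hc => ?_) _
    have h1 : ∀ ψ ∈ D.Mult j N, Tame (D.T j N) fun i => ψ • z i := fun ψ hψ =>
      tame_T j N _ (hz.of_mul fun f hf => D.mul_mem_P hψ hf)
    filter_upwards [(eventually_all_finite (D.mult_finite j N)).2 fun ψ hψ => h1 ψ hψ c hc]
      with i hi
    rintro _ ⟨a, ha, ψ, hψ, t, ht, rfl⟩
    have := hi ψ hψ t ht
    rw [map_smul, LinearMap.smul_apply, smul_eq_mul, abs_mul, pair_mul]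
    have := abs_nonneg (pair t (ψ • z i))
    nlinarith

/-- the invariant of the greedy construction -/
structure Inv (j : ℕ) (F : V → ℝ) (N₁ : ℕ) (S : ℕ → V → ℝ) : Prop where
  wit : D.Wit (j + 1) F S
  ev : ∀ N, N₁ ≤ N → S N = F
  lip : ∀ u v, |F u - F v| ≤ 4 * D.C j * (1 + D.Λ j) * dist u v
  bd : ∀ v, |F v| ≤ 2 * D.C j * (1 + D.Λ j)
  near : ∀ u v, D.θ j ≤ D.τ N₁ v → |F u| ≤ 2 * D.C j * (1 + D.Λ j) * dist u v

theorem inv_step {j : ℕ} {F : V → ℝ} {N₁ : ℕ} {S : ℕ → V → ℝ} (hF : D.Inv j F N₁ S)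
    {f : V → ℝ} {Sf : ℕ → V → ℝ} (hf : D.Wit j f Sf) {N₂ : ℕ} (h12 : N₁ < N₂)
    (hN₂ : ∀ N, N₂ ≤ N → Sf N = f) {a : ℝ} (ha : |a| ≤ 1) :
    ∃ S', D.Inv j (F + a • ((1 - D.φ j N₂) * (f - Sf N₁))) N₂ S' := by
  have hC := D.C_pos j
  have hΛ := D.Λ_pos j
  set G : V → ℝ := a • ((1 - D.φ j N₂) * (f - Sf N₁)) with hG
  have hfb : Bd (D.C j) f := D.bd_of_mem_P ⟨Sf, hf⟩
  have hGb : Bd (2 * D.C j * (1 + D.Λ j)) G := by
    refine Bd.smul ?_ ha
    have := (hfb.sub (hf.bd N₁)).mul (ψ := 1 - D.φ j N₂) hΛ.le (fun v => ?_) (fun u v => ?_)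
    · rwa [← two_mul] at this
    · have := D.φ_nonneg j N₂ v
      have := D.φ_le j N₂ v
      simp only [Pi.sub_apply, Pi.one_apply]
      rw [abs_le]
      constructor <;> linarith
    · simp only [Pi.sub_apply, Pi.one_apply, sub_sub_sub_cancel_left]
      rw [abs_sub_comm]
      exact D.φ_lip j N₂ u v
  -- where `G` lives, `F` vanishes
  have hG1 : ∀ v, G v ≠ 0 → D.θ j ≤ D.τ N₁ v := by
    intro v hv
    by_contra hlt
    apply hv
    have : f v = Sf N₁ v :=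
      hf.eq N₁ v ((D.τ_anti v (Nat.le_succ N₁)).trans (not_le.1 hlt).le)
    simp [hG, this]
  have hG0 : ∀ v, D.τ (N₁ + 1) v ≤ D.θ j → G v = 0 := by
    intro v hv
    have : f v = Sf N₁ v := hf.eq N₁ v hv
    simp [hG, this]
  have hG2 : ∀ v, D.θ j ≤ D.τ N₂ v → G v = 0 := by
    intro v hv
    simp [hG, D.φ_eq_one hv]
  have hF0 : ∀ v, D.θ j ≤ D.τ N₁ v → F v = 0 := by
    intro v hv
    have := hF.near v v hv
    simpa using this
  have hlip : ∀ u v, |(F + G) u - (F + G) v| ≤ 4 * D.C j * (1 + D.Λ j) * dist u v := by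
    have aux : ∀ u v, G v ≠ 0 →
        |(F + G) u - (F + G) v| ≤ 4 * D.C j * (1 + D.Λ j) * dist u v := by
      intro u v hv
      have h1 := hF.near u v (hG1 v hv)
      have h2 := hGb.1 u v
      simp only [Pi.add_apply, hF0 v (hG1 v hv), zero_add]
      rw [add_sub_assoc]
      refine (abs_add_le _ _).trans ?_
      linarith
    intro u v
    by_cases hv : G v = 0
    · by_cases hu : G u = 0
      · simpa [hu, hv] using hF.lip u v
      · rw [abs_sub_comm, dist_comm]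
        exact aux v u hu
    · exact aux u v hv
  have hbd : ∀ v, |(F + G) v| ≤ 2 * D.C j * (1 + D.Λ j) := by
    intro v
    by_cases hv : G v = 0
    · simpa [hv] using hF.bd v
    · simpa [hF0 v (hG1 v hv)] using hGb.2 v
  have hFT : F ∈ (4 * N₁ + 4) • D.Atoms j N₁ (D.T j N₁) := by
    have := hF.wit.mem N₁
    rwa [hF.ev N₁ le_rfl] at this
  have hat : ∀ {N : ℕ} (b : ℝ) (ψ t : V → ℝ), |b| ≤ 1 → ψ ∈ D.Mult j N → t ∈ D.T j N →
      b • (ψ * t) ∈ D.Atoms j N (D.T j N) := fun b ψ t hb hψ ht => ⟨b, hb, ψ, hψ, t, ht, rfl⟩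
  have ha' : |-a| ≤ 1 := by rwa [abs_neg]
  refine ⟨fun N => if N ≤ N₁ then S N else if N < N₂ then F + a • (Sf N - Sf N₁) else F + G,
    ⟨?_, fun N => ?_, fun N => ?_, fun N v hv => ?_⟩, fun N hN => ?_, hlip, hbd, fun u v hv => ?_⟩
  · filter_upwards [eventually_ge_atTop N₂] with N hN
    rw [if_neg (by omega), if_neg (by omega)]
  · split_ifs with h1 h2
    · exact hF.wit.mem N
    · have hle : N₁ ≤ N := by omega
      have e : F + a • (Sf N - Sf N₁) = F + a • (1 * Sf N) + (-a) • (1 * Sf N₁) := by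
        simp only [one_mul, smul_sub, neg_smul]
        abel
      rw [e]
      refine nsmul_mono' (D.zero_mem_atoms j N) (subset_refl _) (n := 4 * N₁ + 4 + 1 + 1)
        (by omega) ?_
      rw [succ_nsmul, succ_nsmul]
      refine Set.add_mem_add (Set.add_mem_add ?_ ?_) ?_
      · exact Set.nsmul_subset_nsmul_left (D.atoms_mono j hle (D.T_mono j hle)) hFT
      · exact hat _ _ _ ha (Set.mem_insert _ _) (hf.mem N)
      · exact hat _ _ _ ha' (Set.mem_insert _ _) (D.T_mono j hle (hf.mem N₁))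
    · have hle : N₁ ≤ N := by omega
      have hle2 : N₂ ≤ N := by omega
      have hfT : f ∈ D.T j N := hN₂ N hle2 ▸ hf.mem N
      have hφ : D.φ j N₂ ∈ D.Mult j N := Set.mem_insert_of_mem _ ⟨N₂, hle2, rfl⟩
      have e : F + G = F + a • (1 * f) + (-a) • (1 * Sf N₁) + (-a) • (D.φ j N₂ * f) +
          a • (D.φ j N₂ * Sf N₁) := by
        ext v
        simp only [hG, Pi.add_apply, Pi.smul_apply, Pi.mul_apply, Pi.sub_apply, Pi.one_apply,
          smul_eq_mul]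
        ring
      rw [e]
      refine nsmul_mono' (D.zero_mem_atoms j N) (subset_refl _) (n := 4 * N₁ + 4 + 1 + 1 + 1 + 1)
        (by omega) ?_
      rw [succ_nsmul, succ_nsmul, succ_nsmul, succ_nsmul]
      refine Set.add_mem_add (Set.add_mem_add (Set.add_mem_add (Set.add_mem_add ?_ ?_) ?_) ?_) ?_
      · exact Set.nsmul_subset_nsmul_left (D.atoms_mono j hle (D.T_mono j hle)) hFT
      · exact hat _ _ _ ha (Set.mem_insert _ _) hfT
      · exact hat _ _ _ ha' (Set.mem_insert _ _) (D.T_mono j hle (hf.mem N₁))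
      · exact hat _ _ _ ha' hφ hfT
      · exact hat _ _ _ ha hφ (D.T_mono j hle (hf.mem N₁))
  · split_ifs with h1 h2
    · exact hF.wit.bd N
    · have hFb : Bd (4 * D.C j * (1 + D.Λ j)) F :=
        ⟨hF.lip, fun v => (hF.bd v).trans (by nlinarith)⟩
      refine (hFb.add (((hf.bd N).sub (hf.bd N₁)).smul ha)).mono ?_
      rw [C_succ]
      nlinarith
    · refine Bd.mono (C := 4 * D.C j * (1 + D.Λ j)) ⟨hlip, fun v => (hbd v).trans (by nlinarith)⟩ ?_
      rw [C_succ]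
      nlinarith
  · have hv' := hv.trans (D.θ_lt j).le
    split_ifs with h1 h2
    · have := hG0 v ((D.τ_anti v (by omega : N + 1 ≤ N₁ + 1)).trans hv')
      simp only [Pi.add_apply, this, add_zero]
      exact hF.wit.eq N v hv
    · have h3 := D.φ_eq_zero ((D.τ_anti v (by omega : N + 1 ≤ N₂)).trans hv)
      simp [hG, h3, hf.eq N v hv']
    · rfl
  · rw [if_neg (by omega), if_neg (by omega)]
  · have hv1 : D.θ j ≤ D.τ N₁ v := hv.trans (D.τ_anti v h12.le)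
    by_cases hu : G u = 0
    · simpa [hu] using hF.near u v hv1
    · have := hGb.1 u v
      simpa [hF0 u (hG1 u hu), hG2 v hv] using this

theorem tame_P (j : ℕ) (z : ℕ → V →₀ ℝ) (hz : WUC (D.P (j + 1)) z) : Tame (D.P j) z := by
  have hzj : WUC (D.P j) z := hz.mono fun f hf => by
    simpa using D.mul_mem_P (N₀ := 0) (Set.mem_insert _ _) hf
  have hC := D.C_pos j
  have hΛ := D.Λ_pos j
  by_contra hn
  obtain ⟨c, hc, hfr⟩ := not_tame hn
  obtain ⟨W, hW⟩ := hz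
  refine greedy (z := z) (fun F => ∃ N₁ S, D.Inv j F N₁ S) (W := W) hc ?_ ?_ ?_
  · refine ⟨0, 0, ⟨by simp, fun N => D.zero_mem_T _ _, fun N => bd_zero (D.C_pos _).le, by simp⟩,
      by simp, fun u v => ?_, fun v => ?_, fun u v _ => ?_⟩
    all_goals simp; positivity
  · rintro F ⟨N₁, S, hF⟩
    exact hW F ⟨S, hF.wit⟩
  · rintro F ⟨N₁, S, hF⟩ s
    obtain ⟨i, ⟨f, ⟨Sf, hf⟩, hlt⟩, hi1, hi2⟩ :=
      (hfr.and_eventually ((D.tame_T j N₁ z hzj c hc).and (eventually_notMem s))).exists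
    have h1 : ∀ᶠ N in atTop, ∀ v ∈ (z i).support, D.τ N v ≤ D.θ (j + 1) :=
      (eventually_all_finset _).2 fun v _ => (D.τ_lim v).eventually (ge_mem_nhds (D.θ_pos _))
    obtain ⟨N₀, hN₀⟩ := eventually_atTop.1 hf.ev
    obtain ⟨N₂, hN1, hN2, hN3⟩ :=
      (h1.and ((eventually_gt_atTop N₁).and (eventually_ge_atTop N₀))).exists
    refine ⟨F, (1 - D.φ j N₂) * (f - Sf N₁), i, hi2, sub_le_self _ hc.le, ?_, ?_, ?_⟩
    · have e : pair ((1 - D.φ j N₂) * (f - Sf N₁)) (z i) = pair f (z i) - pair (Sf N₁) (z i) := by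
        rw [← LinearMap.sub_apply, ← map_sub]
        exact pair_congr fun v hv => by simp [D.φ_eq_zero (hN1 v hv)]
      rw [e]
      have := hi1 _ (hf.mem N₁)
      have := abs_sub_abs_le_abs_sub (pair f (z i)) (pair (Sf N₁) (z i))
      linarith
    · obtain ⟨S', h⟩ := D.inv_step hF hf hN2 (fun N hN => hN₀ N (hN3.trans hN)) (a := 1) (by simp)
      exact ⟨N₂, S', by simpa using h⟩
    · obtain ⟨S', h⟩ := D.inv_step hF hf hN2 (fun N hN => hN₀ N (hN3.trans hN)) (a := -1) (by simp)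
      exact ⟨N₂, S', by simpa [sub_eq_add_neg] using h⟩

end TowerData

end Crest.Agent.R91
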