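import Crest.Agent.R91.Var
import Crest.Agent.R91.Tower

/-!
# Row 91: the cross-scale class
-/

set_option autoImplicit false

namespace Crest.Agent.R91

open Finset Filter MeasureTheory Topology

/-- cells: a scale `k` and `k` integer positions -/
abbrev Cell : Type := Σ k : ℕ, (Fin k → ℤ)

/-- raw indices -/
abbrev Idx : Type := Cell × ℕ

/-- the scale of a raw index -/
def sc (l : Idx) : ℕ := l.1.1

/-- the properties of the raw coordinates which the functional analysis uses -/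
structure Setup (V : Type*) [NormedAddCommGroup V] where
  R : ℕ → Idx → V → ℝ
  Y : ℕ → ℕ → V → ℝ
  τ : ℕ → V → ℝ
  s : ℕ → ℝ
  e : ℕ → ℕ × Idx
  lo : ℕ → ℝ
  M : ℝ
  M_pos : 0 < M
  τ_lip : ∀ N u v, |τ N u - τ N v| ≤ ‖u - v‖
  τ_anti : ∀ v, Antitone fun N => τ N v
  τ_lim : ∀ v, Tendsto (fun N => τ N v) atTop (𝓝 0)
  s_pos : ∀ k, 0 < s k
  s_sum : Summable fun k : ℕ => (16 : ℝ) ^ k * (k * s k)
  e_surj : Function.Surjective e
  lo_pos : ∀ k, 0 < lo k
  R_zero : ∀ n l, R n l 0 = 0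
  R_lip : ∀ n (S : Finset Idx) u v, ∑ l ∈ S, (R n l u - R n l v) ^ 2 ≤ (3 * ‖u - v‖) ^ 2
  R_bd : ∀ n (S : Finset Idx) v, ∑ l ∈ S, R n l v ^ 2 ≤ M ^ 2
  R_lo : ∀ n l v, R n l v ≠ 0 → lo (sc l) < τ n v
  R_sc : ∀ n v, ∃ a, ∀ l, R n l v ≠ 0 → sc l = a ∨ sc l = a + 1
  R_cell : ∀ n l v, R n l v ≠ 0 → ∀ t : Fin l.1.1, |Y n t v / s l.1.1 - l.1.2 t| < 1
  Y_eq : ∀ n t v, (e t).1 < n → Y n t v = R (e t).1 (e t).2 v

variable {V : Type*} [NormedAddCommGroup V]

namespace Setup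

variable (P : Setup V)

theorem R_lip1 (n : ℕ) (l : Idx) (u v : V) : |P.R n l u - P.R n l v| ≤ 3 * ‖u - v‖ := by
  have := P.R_lip n {l} u v
  rw [sum_singleton] at this
  exact abs_le_of_sq_le_sq this (by positivity)

/-- raw coordinates with a scale-dependent position -/
def rr (ν : ℕ → ℕ) (l : Idx) : V → ℝ := P.R (ν (sc l)) l

/-- the cross-scale class -/
def RR (C : ℝ) : Set (V → ℝ) :=
  {f | ∃ ν S ξ t, Adm sc S ξ t ∧ (∀ u v, var (P.rr ν) S ξ u v ≤ C * ‖u - v‖) ∧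
    f = fn (P.rr ν) S ξ}

theorem scale_le {S : Finset Idx} {ξ : Idx → ℝ → ℝ} {t : Idx → ℝ} (h : Adm sc S ξ t) (n k : ℕ)
    (u v : V) : ∑ l ∈ S with sc l = k, t l * |P.R n l u - P.R n l v| ≤ 3 * ‖u - v‖ := by
  have := cs_le (S.filter fun l => sc l = k) t (fun l => P.R n l u - P.R n l v) zero_le_one
    (b := 3 * ‖u - v‖) (by positivity) (by simpa using h.budget k) (P.R_lip n _ u v)
  simpa using this

theorem Bas_sub_RR (n : ℕ) : Bas sc Set.univ (P.R n) ⊆ P.RR 12 := by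
  rintro _ ⟨S, ξ, t, h, -, rfl⟩
  refine ⟨fun _ => n, S, ξ, t, h, fun u v => ?_, rfl⟩
  refine (var_le h _ u v).trans ?_
  obtain ⟨a, ha⟩ := P.R_sc n u
  obtain ⟨b, hb⟩ := P.R_sc n v
  set K : Finset ℕ := {a, a + 1, b, b + 1} with hK
  have h1 : ∑ l ∈ S, t l * |P.rr (fun _ => n) l u - P.rr (fun _ => n) l v| =
      ∑ l ∈ S with sc l ∈ K, t l * |P.R n l u - P.R n l v| := by
    symm
    refine sum_filter_of_ne fun l _ hne => ?_
    by_contra hl
    apply hne
    have hu : P.R n l u = 0 := by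
      by_contra h0
      rcases ha l h0 with h | h <;> simp [hK, h] at hl
    have hv : P.R n l v = 0 := by
      by_contra h0
      rcases hb l h0 with h | h <;> simp [hK, h] at hl
    simp [hu, hv]
  rw [h1, ← sum_fiberwise_eq_sum_filter]
  calc _ ≤ ∑ _k ∈ K, 3 * ‖u - v‖ := sum_le_sum fun k _ => P.scale_le h n k u v
    _ ≤ _ := by
      rw [sum_const, nsmul_eq_mul]
      have : (K.card : ℝ) ≤ 4 := by exact_mod_cast card_le_four
      have := norm_nonneg (u - v)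
      nlinarith

theorem smul_mem_RR {C a : ℝ} (ha : 0 ≤ a) (ha1 : a ≤ 1) {f : V → ℝ} (hf : f ∈ P.RR C) :
    a • f ∈ P.RR (a * C) := by
  obtain ⟨ν, S, ξ, t, h, hv, rfl⟩ := hf
  refine ⟨ν, S, _, t, h.smul (a := a) (by rwa [abs_of_nonneg ha]), fun u v => ?_,
    (fn_smul _ _ _ _).symm⟩
  rw [var_smul, abs_of_nonneg ha, mul_assoc]
  exact mul_le_mul_of_nonneg_left (hv u v) ha

theorem lip_of_mem_RR {C : ℝ} {f : V → ℝ} (hf : f ∈ P.RR C) :
    (∀ u v, |f u - f v| ≤ C * ‖u - v‖) ∧ f 0 = 0 := by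
  obtain ⟨ν, S, ξ, t, h, hv, rfl⟩ := hf
  exact ⟨fun u v => (fn_sub_le_var h _ u v).trans (hv u v), by simp [fn, rr, P.R_zero]⟩

/-- the tower at scale `k` -/
noncomputable def tower (k : ℕ) : TowerData V where
  τ := P.τ
  τ_lip := fun N u v => by simpa [dist_eq_norm] using P.τ_lip N u v
  τ_anti := P.τ_anti
  τ_lim := P.τ_lim
  lo := P.lo k
  lo_pos := P.lo_pos k
  B := fun n => Bas sc {k} (P.R n)
  C0 := 3 + P.M
  C0_pos := by have := P.M_pos; positivity
  B_bd := by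
    rintro n _ ⟨S, ξ, t, h, hS, rfl⟩
    have hS' : S.filter (fun l => sc l = k) = S := filter_true_of_mem hS
    have hM := P.M_pos
    refine ⟨fun u v => ?_, fun v => ?_⟩
    · refine ((fn_sub_le_var h _ u v).trans (var_le h _ u v)).trans ?_
      have := P.scale_le h n k u v
      rw [hS'] at this
      rw [dist_eq_norm]
      have := norm_nonneg (u - v)
      nlinarith
    · refine (abs_fn_le h _ v).trans ?_
      have := cs_le S t (fun l => P.R n l v) zero_le_one hM.le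
        (by simpa [hS'] using h.budget k) (P.R_bd n S v)
      linarith
  B_van := by
    rintro n _ ⟨S, ξ, t, h, hS, rfl⟩ v hv
    refine sum_eq_zero fun l hl => ?_
    have : P.R n l v = 0 := by
      by_contra h0
      have := P.R_lo n l v h0
      rw [hS l hl] at this
      linarith
    simp [this]
  B_tame := fun n z => tame_Bas _ _ _ z

theorem live_cells (n k : ℕ) (w : V) : ∃ A : Finset Cell, A.card ≤ 2 ^ k ∧
    ∀ l, sc l = k → P.R n l w ≠ 0 → l.1 ∈ A := by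
  classical
  refine ⟨(Fintype.piFinset fun t : Fin k =>
    ({⌊P.Y n t w / P.s k⌋, ⌊P.Y n t w / P.s k⌋ + 1} : Finset ℤ)).image (Sigma.mk k), ?_, ?_⟩
  · refine card_image_le.trans ?_
    rw [Fintype.card_piFinset]
    exact (prod_le_pow_card _ _ 2 fun t _ => card_le_two).trans (by simp)
  · rintro ⟨⟨k', c⟩, j⟩ hk h0
    obtain rfl : k' = k := hk
    refine mem_image_of_mem _ (Fintype.mem_piFinset.2 fun t => ?_)
    have h1 := abs_lt.1 (P.R_cell n _ w h0 t)
    simp only at h1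
    set x := P.Y n t w / P.s k'
    have h2 := Int.floor_le x
    have h3 := Int.lt_floor_add_one x
    have h4 : (⌊x⌋ : ℝ) - 1 < c t := by linarith [h1.2]
    have h5 : (c t : ℝ) < ⌊x⌋ + 2 := by linarith [h1.1]
    have h6 : ⌊x⌋ - 1 < c t := by exact_mod_cast h4
    have h7 : c t < ⌊x⌋ + 2 := by exact_mod_cast h5
    simp only [mem_insert, mem_singleton]
    omega

/-- big cells -/
noncomputable def big (S : Finset Idx) (t : Idx → ℝ) : Finset Cell :=
  (S.image Prod.fst).filter fun γ => (1 / 16 : ℝ) ^ γ.1 ≤ ∑ l ∈ S with l.1 = γ, t l ^ 2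

theorem card_big {S : Finset Idx} {ξ : Idx → ℝ → ℝ} {t : Idx → ℝ} (h : Adm sc S ξ t) (k : ℕ) :
    (((big S t).filter fun γ => γ.1 = k).card : ℝ) ≤ 16 ^ k := by
  set A := (big S t).filter fun γ => γ.1 = k with hA
  have h1 : ∑ _γ ∈ A, (1 / 16 : ℝ) ^ k ≤ ∑ γ ∈ A, ∑ l ∈ S with l.1 = γ, t l ^ 2 := by
    refine sum_le_sum fun γ hγ => ?_
    obtain ⟨h1, h2⟩ := mem_filter.1 hγ
    rw [← h2]
    exact (mem_filter.1 h1).2
  rw [sum_fiberwise_eq_sum_filter, sum_const, nsmul_eq_mul] at h1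
  have h2 : ∑ l ∈ S with l.1 ∈ A, t l ^ 2 ≤ ∑ l ∈ S with sc l = k, t l ^ 2 := by
    refine sum_le_sum_of_subset_of_nonneg (fun l hl => ?_) fun _ _ _ => sq_nonneg _
    obtain ⟨h1, h2⟩ := mem_filter.1 hl
    exact mem_filter.2 ⟨h1, (mem_filter.1 h2).2⟩
  have h3 := (h1.trans h2).trans (h.budget k)
  rw [one_div, inv_pow, ← div_eq_mul_inv, div_le_one (by positivity)] at h3
  exact h3

theorem not_big {S : Finset Idx} {t : Idx → ℝ} {γ : Cell} (h : γ ∉ big S t) :
    ∑ l ∈ S with l.1 = γ, t l ^ 2 ≤ ((1 / 4 : ℝ) ^ γ.1) ^ 2 := by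
  rw [← pow_mul, mul_comm, pow_mul, show (1 / 4 : ℝ) ^ 2 = 1 / 16 by norm_num]
  by_cases hγ : γ ∈ S.image Prod.fst
  · exact (not_le.1 fun h' => h (mem_filter.2 ⟨hγ, h'⟩)).le
  · rw [sum_eq_zero]
    · positivity
    · intro l hl
      exact absurd (mem_image.2 ⟨l, (mem_filter.1 hl).1, (mem_filter.1 hl).2⟩) hγ

/-- the mask -/
def mask (G : Finset Cell) : Set ℝ :=
  ⋃ γ ∈ G, ⋃ t : Fin γ.1, Set.Ioo ((γ.2 t - 2) * P.s γ.1) ((γ.2 t + 2) * P.s γ.1)

theorem mask_meas (G : Finset Cell) : MeasurableSet (P.mask G) :=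
  G.measurableSet_biUnion fun _ _ => MeasurableSet.iUnion fun _ => measurableSet_Ioo

theorem mask_fin (G : Finset Cell) : volume (P.mask G) ≠ ⊤ :=
  measure_biUnion_ne_top G.finite_toSet fun _ _ => by
    refine ((measure_iUnion_fintype_le _ _).trans_lt ?_).ne
    exact ENNReal.sum_lt_top.2 fun _ _ => measure_Ioo_lt_top

theorem mask_vol {G : Finset Cell} (hG : ∀ k, ((G.filter fun γ => γ.1 = k).card : ℝ) ≤ 16 ^ k) :
    volume.real (P.mask G) ≤ 4 * ∑ k ∈ G.image Sigma.fst, (16 : ℝ) ^ k * (k * P.s k) := by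
  refine (measureReal_biUnion_finset_le _ _).trans ?_
  have h1 : ∀ γ ∈ G, volume.real (⋃ t : Fin γ.1,
      Set.Ioo ((γ.2 t - 2) * P.s γ.1) ((γ.2 t + 2) * P.s γ.1)) ≤ 4 * (γ.1 * P.s γ.1) := by
    intro γ _
    refine (measureReal_iUnion_fintype_le _).trans (le_of_eq ?_)
    have hs := P.s_pos γ.1
    rw [sum_congr rfl fun t _ => Real.volume_real_Ioo_of_le (by nlinarith)]
    rw [sum_congr rfl (g := fun _ => 4 * P.s γ.1) fun t _ => by ring]
    simp
    ring
  refine (sum_le_sum h1).trans ?_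
  rw [← mul_sum, ← sum_fiberwise_of_maps_to (g := Sigma.fst) (t := G.image Sigma.fst)
    fun γ hγ => mem_image_of_mem _ hγ]
  refine mul_le_mul_of_nonneg_left (sum_le_sum fun k _ => ?_) (by norm_num)
  rw [sum_congr rfl (g := fun _ => k * P.s k) fun γ hγ => by rw [(mem_filter.1 hγ).2],
    sum_const, nsmul_eq_mul]
  have := P.s_pos k
  exact mul_le_mul_of_nonneg_right (hG k) (by positivity)

/-- near a point where a big cell is live, old coordinates are inside the mask -/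
theorem mem_mask {G : Finset Cell} {l : Idx} (hl : l.1 ∈ G) {n : ℕ} {w : V}
    (hw : P.R n l w ≠ 0) {t : ℕ} (ht : t < sc l) (hn : (P.e t).1 < n) {u v : V}
    (hu : 3 * ‖u - w‖ < P.s (sc l)) (hv : 3 * ‖v - w‖ < P.s (sc l)) :
    Set.uIcc (P.R (P.e t).1 (P.e t).2 v) (P.R (P.e t).1 (P.e t).2 u) ⊆ P.mask G := by
  have hs := P.s_pos l.1.1
  have h1 := abs_lt.1 (P.R_cell n l w hw ⟨t, ht⟩)
  simp only at h1
  rw [P.Y_eq n t w hn] at h1
  set c : ℝ := ((l.1.2 ⟨t, ht⟩ : ℤ) : ℝ) with hc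
  have h2 : (c - 1) * P.s l.1.1 < P.R (P.e t).1 (P.e t).2 w := by
    rw [← lt_div_iff₀ hs]
    linarith [h1.1]
  have h3 : P.R (P.e t).1 (P.e t).2 w < (c + 1) * P.s l.1.1 := by
    rw [← div_lt_iff₀ hs]
    linarith [h1.2]
  have h4 : ∀ x, 3 * ‖x - w‖ < P.s (sc l) →
      P.R (P.e t).1 (P.e t).2 x ∈ Set.Ioo ((c - 2) * P.s l.1.1) ((c + 2) * P.s l.1.1) := by
    intro x hx
    have := abs_le.1 (P.R_lip1 (P.e t).1 (P.e t).2 x w)
    unfold sc at hx
    constructor <;> linarith [this.1, this.2]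
  refine (Set.ordConnected_Ioo.uIcc_subset (h4 v hv) (h4 u hu)).trans ?_
  intro x hx
  exact Set.mem_biUnion (t := fun γ : Cell => ⋃ t : Fin γ.1,
    Set.Ioo ((γ.2 t - 2) * P.s γ.1) ((γ.2 t + 2) * P.s γ.1)) (Finset.mem_coe.2 hl)
    (Set.mem_iUnion.2 ⟨⟨t, ht⟩, hx⟩)

/-- away from the big cells the variation is geometrically small -/
theorem var_small {ν : ℕ → ℕ} {S : Finset Idx} {ξ : Idx → ℝ → ℝ} {t : Idx → ℝ}
    (h : Adm sc S ξ t) {K K' : ℕ} (hK : K ≤ K') (hS : ∀ l ∈ S, sc l ∈ Ioc K K') {u v : V}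
    (hu : ∀ l ∈ S, l.1 ∈ big S t → P.rr ν l u = 0)
    (hv : ∀ l ∈ S, l.1 ∈ big S t → P.rr ν l v = 0) :
    var (P.rr ν) S ξ u v ≤ 6 * ((1 / 2) ^ K - (1 / 2) ^ K') * ‖u - v‖ := by
  classical
  refine (var_le h _ u v).trans ?_
  rw [← sum_fiberwise_of_maps_to hS, ← geom_Ioc hK, mul_sum, sum_mul]
  refine sum_le_sum fun k _ => ?_
  obtain ⟨A, hA, hA'⟩ := P.live_cells (ν k) k u
  obtain ⟨B, hB, hB'⟩ := P.live_cells (ν k) k v
  set G := ((A ∪ B) \ big S t).filter fun γ => γ.1 = k with hG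
  have h1 : ∑ l ∈ S with sc l = k, t l * |P.rr ν l u - P.rr ν l v| =
      ∑ l ∈ S with l.1 ∈ G, t l * |P.R (ν k) l u - P.R (ν k) l v| := by
    symm
    refine (sum_congr rfl fun l hl => ?_).trans (sum_subset (fun l hl => ?_) fun l hl hl' => ?_)
    · have : sc l = k := (mem_filter.1 (mem_filter.1 hl).2).2
      simp [rr, this]
    · exact mem_filter.2 ⟨(mem_filter.1 hl).1, (mem_filter.1 (mem_filter.1 hl).2).2⟩
    · obtain ⟨hlS, hlk⟩ := mem_filter.1 hl
      by_cases hb : l.1 ∈ big S t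
      · simp [hu l hlS hb, hv l hlS hb]
      · have hAB : l.1 ∉ A ∪ B := fun hAB =>
          hl' (mem_filter.2 ⟨hlS, mem_filter.2 ⟨mem_sdiff.2 ⟨hAB, hb⟩, hlk⟩⟩)
        have h2 : P.R (ν k) l u = 0 := by
          by_contra h0
          exact hAB (mem_union_left _ (hA' l hlk h0))
        have h3 : P.R (ν k) l v = 0 := by
          by_contra h0
          exact hAB (mem_union_right _ (hB' l hlk h0))
        simp [rr, hlk, h2, h3]
  rw [h1, ← sum_fiberwise_eq_sum_filter]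
  have h2 : ∀ γ ∈ G, ∑ l ∈ S with l.1 = γ, t l * |P.R (ν k) l u - P.R (ν k) l v| ≤
      (1 / 4) ^ k * (3 * ‖u - v‖) := by
    intro γ hγ
    obtain ⟨h3, h4⟩ := mem_filter.1 hγ
    have := not_big (mem_sdiff.1 h3).2
    rw [h4] at this
    exact cs_le _ t (fun l => P.R (ν k) l u - P.R (ν k) l v) (by positivity) (by positivity) this
      (P.R_lip _ _ u v)
  refine (sum_le_sum h2).trans ?_
  rw [sum_const, nsmul_eq_mul]
  have h3 : (G.card : ℝ) ≤ 2 * 2 ^ k := by
    have : G.card ≤ 2 * 2 ^ k :=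
      (card_le_card ((filter_subset _ _).trans sdiff_subset)).trans
        ((card_union_le A B).trans (by omega))
    exact_mod_cast this
  calc _ ≤ 2 * 2 ^ k * ((1 / 4) ^ k * (3 * ‖u - v‖)) :=
        mul_le_mul_of_nonneg_right h3 (by positivity)
    _ = 6 * (2 ^ k * (1 / 4) ^ k) * ‖u - v‖ := by ring
    _ = _ := by
        rw [← mul_pow]
        norm_num

/-- the invariant of the cross-scale greedy construction -/
def CInv (F : V → ℝ) : Prop :=
  ∃ ν S ξ t, ∃ K : ℕ, Adm sc S ξ t ∧ (∀ l ∈ S, sc l ≤ K) ∧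
    (∀ u v, var (P.rr ν) S ξ u v ≤ (18 - 6 * (1 / 2) ^ K) * ‖u - v‖) ∧ F = fn (P.rr ν) S ξ

theorem cinv_step [NormedSpace ℝ V] {ν ν' : ℕ → ℕ} {S S' : Finset Idx} {ξ ξ' : Idx → ℝ → ℝ}
    {t t' : Idx → ℝ} {K : ℕ} (h : Adm sc S ξ t) (hS : ∀ l ∈ S, sc l ≤ K)
    (hv : ∀ u v, var (P.rr ν) S ξ u v ≤ (18 - 6 * (1 / 2) ^ K) * ‖u - v‖)
    (he : ∀ l ∈ S, ∃ i ≤ K, P.e i = (ν (sc l), l))
    (h' : Adm sc S' ξ' t') (hS' : ∀ l ∈ S', K < sc l)
    (hν : ∀ l ∈ S, ∀ l' ∈ S', ν (sc l) < ν' (sc l'))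
    (hv' : ∀ u v, var (P.rr ν') S' ξ' u v ≤ 12 * ‖u - v‖) {a : ℝ} (ha : |a| = 1) :
    P.CInv (fn (P.rr ν) S (fun l => (P.mask (big S' t'))ᶜ.indicator (ξ l)) +
      a • fn (P.rr ν') S' ξ') := by
  classical
  set J := P.mask (big S' t') with hJ
  set K' := max K (S'.sup sc) with hK'
  have hKK' : K ≤ K' := le_max_left _ _
  have hS'' : ∀ l ∈ S', sc l ∈ Ioc K K' := fun l hl =>
    mem_Ioc.2 ⟨hS' l hl, (le_sup hl).trans (le_max_right _ _)⟩
  have hdisj : Disjoint S S' := disjoint_left.2 fun l hl hl' => (hS l hl).not_gt (hS' l hl')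
  have h1 := h.mask (P.mask_meas (big S' t')).compl
  have h2 := h'.smul ha.le
  set ν'' : ℕ → ℕ := fun k => if k ≤ K then ν k else ν' k with hν''
  set ξ'' : Idx → ℝ → ℝ := fun l =>
    if sc l ≤ K then Jᶜ.indicator (ξ l) else fun x => a * ξ' l x with hξ''
  have hadm : Adm sc (S ∪ S') ξ'' fun l => if sc l ≤ K then t l else t' l := by
    refine ⟨fun l => ?_, fun l x => ?_, fun k => ?_⟩
    · simp only [hξ'']
      split_ifs
      · exact h1.meas l
      · exact h2.meas l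
    · simp only [hξ'']
      split_ifs
      · exact h1.le l x
      · exact h2.le l x
    · by_cases hk : k ≤ K
      · refine le_trans (le_of_eq ?_) (h.budget k)
        refine sum_congr ?_ fun l hl => ?_
        · ext l
          simp only [mem_filter, mem_union]
          refine ⟨fun ⟨h3, h4⟩ => ⟨h3.resolve_right fun h5 => ?_, h4⟩, fun ⟨h3, h4⟩ => ⟨.inl h3, h4⟩⟩
          have := hS' l h5
          omega
        · rw [if_pos ((mem_filter.1 hl).2 ▸ hk)]
      · refine le_trans (le_of_eq ?_) (h'.budget k)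
        refine sum_congr ?_ fun l hl => ?_
        · ext l
          simp only [mem_filter, mem_union]
          refine ⟨fun ⟨h3, h4⟩ => ⟨h3.resolve_left fun h5 => ?_, h4⟩, fun ⟨h3, h4⟩ => ⟨.inr h3, h4⟩⟩
          have := hS l h5
          omega
        · rw [if_neg ((mem_filter.1 hl).2 ▸ hk)]
  have hvar : ∀ u v, var (P.rr ν'') (S ∪ S') ξ'' u v =
      var (P.rr ν) S (fun l => Jᶜ.indicator (ξ l)) u v + var (P.rr ν') S' ξ' u v := by
    intro u v
    unfold var
    rw [sum_union hdisj]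
    congr 1
    · exact sum_congr rfl fun l hl => by simp [rr, hν'', hξ'', hS l hl]
    · exact sum_congr rfl fun l hl => by simp [rr, hν'', hξ'', (hS' l hl).not_ge, abs_mul, ha]
  refine ⟨ν'', S ∪ S', ξ'', _, K', hadm, fun l hl => ?_, ?_, ?_⟩
  · rcases mem_union.1 hl with hl | hl
    · exact (hS l hl).trans hKK'
    · exact (mem_Ioc.1 (hS'' l hl)).2
  · obtain ⟨k₀, -, hk₀⟩ := (range (K' + 1)).exists_min_image P.s ⟨0, by simp⟩
    have hs0 := P.s_pos k₀
    refine local_to_global (δ := P.s k₀ / 3) (by positivity) (var_triangle hadm _) fun u v huv => ?_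
    rw [hvar]
    have hd := norm_nonneg (u - v)
    have hp : (1 / 2 : ℝ) ^ K' ≤ 1 := pow_le_one₀ (by norm_num) (by norm_num)
    have hA : ∀ w, ‖u - w‖ ≤ ‖u - v‖ → ‖v - w‖ ≤ ‖u - v‖ → ∀ l' ∈ S', l'.1 ∈ big S' t' →
        P.rr ν' l' w ≠ 0 → var (P.rr ν) S (fun l => Jᶜ.indicator (ξ l)) u v = 0 := by
      intro w hu hv l' hl' hb hw
      refine var_mask_eq_zero ξ fun l hl => ?_
      obtain ⟨i, hi, hei⟩ := he l hl
      have hs := hk₀ (sc l') (mem_range.2 (Nat.lt_succ_of_le (mem_Ioc.1 (hS'' l' hl')).2))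
      have := P.mem_mask hb hw (hi.trans_lt (hS' l' hl')) (by rw [hei]; exact hν l hl l' hl')
        (u := u) (v := v) (by linarith) (by linarith)
      rw [hei] at this
      exact this
    by_cases hcase : (∀ l ∈ S', l.1 ∈ big S' t' → P.rr ν' l u = 0) ∧
        ∀ l ∈ S', l.1 ∈ big S' t' → P.rr ν' l v = 0
    · have h3 := P.var_small h' hKK' hS'' hcase.1 hcase.2
      have h4 := (var_mono h (ξ' := fun l => Jᶜ.indicator (ξ l))
        (fun l x => abs_indicator_le _ _ _) (P.rr ν) u v).trans (hv u v)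
      linarith
    · have h3 : var (P.rr ν) S (fun l => Jᶜ.indicator (ξ l)) u v = 0 := by
        rw [not_and_or] at hcase
        rcases hcase with hc | hc
        · push Not at hc
          obtain ⟨l, hl, hb, hw⟩ := hc
          exact hA u (by simp) (by rw [norm_sub_rev]) l hl hb hw
        · push Not at hc
          obtain ⟨l, hl, hb, hw⟩ := hc
          exact hA v le_rfl (by simp) l hl hb hw
      have h4 := hv' u v
      rw [h3]
      nlinarith
  · rw [← fn_smul]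
    ext v
    simp only [fn, Pi.add_apply]
    rw [sum_union hdisj]
    congr 1
    · exact sum_congr rfl fun l hl => by simp [rr, hν'', hξ'', hS l hl]
    · exact sum_congr rfl fun l hl => by simp [rr, hν'', hξ'', (hS' l hl).not_ge]

theorem fn_fiber (ν : ℕ → ℕ) (S : Finset Idx) (ξ : Idx → ℝ → ℝ) (g : Idx → ℕ) (T : Finset ℕ)
    (hT : ∀ l ∈ S, g l ∈ T) (μ : ℕ → ℕ) (hμ : ∀ l ∈ S, μ (g l) = ν (sc l)) :
    fn (P.rr ν) S ξ = ∑ m ∈ T, (1 : ℝ) • fn (P.R (μ m)) (S.filter fun l => g l = m) ξ := by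
  ext v
  simp only [fn, one_smul, Finset.sum_apply]
  rw [← sum_fiberwise_of_maps_to hT]
  refine sum_congr rfl fun m _ => sum_congr rfl fun l hl => ?_
  obtain ⟨h1, h2⟩ := mem_filter.1 hl
  rw [← h2, hμ l h1, rr]

theorem tame_RR [NormedSpace ℝ V] {z : ℕ → V →₀ ℝ} (hz : WUC (P.RR 12) z)
    (hk : ∀ k, Tame (⋃ n, Bas sc {k} (P.R n)) z) : Tame (P.RR 12) z := by
  classical
  have hb : ∀ n, Tame (Bas sc Set.univ (P.R n)) z := fun n =>
    tame_Bas _ _ _ z (hz.mono (P.Bas_sub_RR n))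
  have hz' : WUC {F | P.CInv F} z := by
    refine hz.of_smul (a := 2 / 3) (by norm_num) ?_
    rintro _ ⟨ν, S, ξ, t, K, h, -, hv, rfl⟩
    have : fn (P.rr ν) S ξ ∈ P.RR 18 := by
      refine ⟨ν, S, ξ, t, h, fun u v => (hv u v).trans ?_, rfl⟩
      have : (0 : ℝ) ≤ (1 / 2) ^ K * ‖u - v‖ := by positivity
      linarith
    have := P.smul_mem_RR (a := 2 / 3) (by norm_num) (by norm_num) this
    norm_num at this
    exact this
  by_contra hn
  obtain ⟨c, hc, hfr⟩ := not_tame hn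
  obtain ⟨W, hW⟩ := hz'
  refine greedy (z := z) P.CInv hc ?_ hW ?_
  · refine ⟨0, ∅, 0, 0, 0, ⟨fun _ => measurable_zero, by simp, by simp⟩, by simp, fun u v => ?_, ?_⟩
    · simp only [var, sum_empty]
      positivity
    · ext v
      simp [fn]
  rintro _ ⟨ν, S, ξ, t, K, h, hS, hv, rfl⟩ s
  set T := ∑ j ∈ s, tv (z j) with hT
  have hT0 : 0 ≤ T := sum_nonneg fun _ _ => tv_nonneg _
  set U := ∑ l ∈ S, t l with hU
  have hU0 : 0 ≤ U := sum_nonneg fun l _ => h.nonneg l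
  obtain ⟨A, hA⟩ := summable_iff_vanishing_norm.1 P.s_sum (c / (4 * (T * U + 1))) (by positivity)
  choose idx hidx using P.e_surj
  set K₁ := max K (max (A.sup id) (S.sup fun l => idx (ν (sc l), l))) with hK₁
  set N := S.sup fun l => ν (sc l) with hN
  obtain ⟨i, ⟨_, ⟨ν', S₀, ξ', t', h', hv', rfl⟩, hlt⟩, ⟨hi1, hi2⟩, hi3⟩ :=
    (hfr.and_eventually (((Tame.finsum (range (K₁ + 1)) (fun _ => 1) (fun k _ => hk k) hc).and
      (Tame.finsum (range (N + 1)) (fun _ => 1) (fun n _ => hb n) hc)).and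
      (eventually_notMem s))).exists
  set S₁ := S₀.filter fun l => sc l ≤ K₁ with hS₁
  set S₂ := (S₀.filter fun l => ¬ sc l ≤ K₁).filter fun l => ν' (sc l) ≤ N with hS₂
  set S' := (S₀.filter fun l => ¬ sc l ≤ K₁).filter fun l => ¬ ν' (sc l) ≤ N with hS'
  have hsub : S' ⊆ S₀ := (filter_subset _ _).trans (filter_subset _ _)
  have hsplit : fn (P.rr ν') S₀ ξ' = fn (P.rr ν') S₁ ξ' + fn (P.rr ν') S₂ ξ' +
      fn (P.rr ν') S' ξ' := by
    ext v
    simp only [fn, Pi.add_apply]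
    rw [add_assoc, sum_filter_add_sum_filter_not, sum_filter_add_sum_filter_not]
  have e1 : |pair (fn (P.rr ν') S₁ ξ') (z i)| ≤ c := by
    rw [P.fn_fiber ν' S₁ ξ' sc (range (K₁ + 1))
      (fun l hl => mem_range.2 (Nat.lt_succ_of_le (mem_filter.1 hl).2)) ν' fun _ _ => rfl]
    refine hi1 _ _ _ (subset_refl _) fun k _ => ⟨by simp, Set.mem_iUnion.2 ⟨ν' k, _, ξ', t',
      h'.subset ((filter_subset _ _).trans (filter_subset _ _)), fun l hl => ?_, rfl⟩⟩
    exact (mem_filter.1 hl).2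
  have e2 : |pair (fn (P.rr ν') S₂ ξ') (z i)| ≤ c := by
    rw [P.fn_fiber ν' S₂ ξ' (fun l => ν' (sc l)) (range (N + 1))
      (fun l hl => mem_range.2 (Nat.lt_succ_of_le (mem_filter.1 hl).2)) id fun _ _ => rfl]
    exact hi2 _ _ _ (subset_refl _) fun k _ => ⟨by simp, _, ξ', t',
      h'.subset ((filter_subset _ _).trans ((filter_subset _ _).trans (filter_subset _ _))),
      fun l _ => Set.mem_univ _, rfl⟩
  have hstep : ∀ a : ℝ, |a| = 1 → P.CInv (fn (P.rr ν) S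
      (fun l => (P.mask (big S' t'))ᶜ.indicator (ξ l)) + a • fn (P.rr ν') S' ξ') := by
    intro a ha
    refine P.cinv_step (K := K₁) h (fun l hl => (hS l hl).trans (le_max_left _ _))
      (fun u v => (hv u v).trans ?_) (fun l hl => ⟨idx (ν (sc l), l), ?_, hidx _⟩)
      (h'.subset hsub) (fun l hl => not_le.1 (mem_filter.1 (mem_filter.1 hl).1).2)
      (fun l hl l' hl' => ?_) (fun u v => (var_subset _ hsub _ u v).trans (hv' u v)) ha
    · have : (1 / 2 : ℝ) ^ K₁ ≤ (1 / 2) ^ K :=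
        pow_le_pow_of_le_one (by norm_num) (by norm_num) (le_max_left _ _)
      exact mul_le_mul_of_nonneg_right (by linarith) (norm_nonneg _)
    · exact (le_sup (f := fun l => idx (ν (sc l), l)) hl).trans
        ((le_max_right _ _).trans (le_max_right _ _))
    · exact (le_sup (f := fun l => ν (sc l)) hl).trans_lt (not_le.1 (mem_filter.1 hl').2)
  refine ⟨_, fn (P.rr ν') S' ξ', i, hi3, ?_, ?_, by simpa using hstep 1 (by simp),
    by simpa [sub_eq_add_neg] using hstep (-1) (by simp)⟩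
  · have hvol : volume.real (P.mask (big S' t')) ≤ c / (T * U + 1) := by
      refine (P.mask_vol (card_big (h'.subset hsub))).trans ?_
      have := hA ((big S' t').image Sigma.fst) (disjoint_left.2 fun k hk hkA => ?_)
      · have := (le_abs_self _).trans_lt this
        rw [lt_div_iff₀ (by positivity)] at this
        rw [le_div_iff₀ (by positivity)]
        linarith
      · obtain ⟨γ, hγ, rfl⟩ := mem_image.1 hk
        obtain ⟨l, hl, rfl⟩ := mem_image.1 (mem_filter.1 hγ).1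
        exact (mem_filter.1 (mem_filter.1 hl).1).2 ((le_sup (f := id) hkA).trans
          ((le_max_left _ _).trans (le_max_right _ _)))
    have hdiff : ∀ j, |pair (fn (P.rr ν) S ξ) (z j)| ≤ |pair (fn (P.rr ν) S
        fun l => (P.mask (big S' t'))ᶜ.indicator (ξ l)) (z j)| +
          tv (z j) * (U * (c / (T * U + 1))) := by
      intro j
      have h1 := abs_pair_le (f := fn (P.rr ν) S ξ - fn (P.rr ν) S
        fun l => (P.mask (big S' t'))ᶜ.indicator (ξ l)) (a := U * (c / (T * U + 1)))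
        (fun v => (fn_mask h (P.mask_meas _) (P.mask_fin _) _ v).trans
          (mul_le_mul_of_nonneg_left hvol hU0)) (z j)
      rw [map_sub, LinearMap.sub_apply] at h1
      have h2 := abs_sub_abs_le_abs_sub (pair (fn (P.rr ν) S ξ) (z j)) (pair (fn (P.rr ν) S
        fun l => (P.mask (big S' t'))ᶜ.indicator (ξ l)) (z j))
      linarith
    have h1 := sum_le_sum fun j (_ : j ∈ s) => hdiff j
    rw [sum_add_distrib, ← sum_mul, ← hT] at h1
    have h2 : T * (U * (c / (T * U + 1))) ≤ c := by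
      rw [← mul_assoc, ← mul_div_assoc, div_le_iff₀ (by positivity)]
      nlinarith
    linarith
  · rw [hsplit, map_add, map_add, LinearMap.add_apply, LinearMap.add_apply] at hlt
    have := abs_add_three (pair (fn (P.rr ν') S₁ ξ') (z i)) (pair (fn (P.rr ν') S₂ ξ') (z i))
      (pair (fn (P.rr ν') S' ξ') (z i))
    linarith

/-- The norming class. -/
theorem exists_class [NormedSpace ℝ V] : ∃ 𝒩 : Set (V → ℝ),
    (∀ f ∈ 𝒩, (∀ u v, |f u - f v| ≤ ‖u - v‖) ∧ |f 0| ≤ 1) ∧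
    (∃ w : ℝ, 0 < w ∧ ∀ n, ∀ f ∈ Bas sc Set.univ (P.R n), w • f ∈ 𝒩) ∧
    ∀ z, WUC 𝒩 z → Tame 𝒩 z := by
  obtain ⟨ε, hε, c, hc, hc1⟩ := posSumOfEncodable zero_lt_one (Option (ℕ × ℕ))
  set 𝒞 : Option (ℕ × ℕ) → Set (V → ℝ) := fun m => m.elim (P.RR 12) fun p => (P.tower p.1).P p.2
    with h𝒞
  set A : Option (ℕ × ℕ) → ℝ := fun m => m.elim 12 fun p => (P.tower p.1).C p.2 with hA
  have hA0 : ∀ m, 0 < A m := by
    rintro (_ | p)
    · simp [hA]
    · exact (P.tower p.1).C_pos p.2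
  have hbd : ∀ m, ∀ f ∈ 𝒞 m, (∀ u v, |f u - f v| ≤ A m * ‖u - v‖) ∧ |f 0| ≤ A m := by
    rintro (_ | p) f hf
    · have := P.lip_of_mem_RR hf
      exact ⟨this.1, by simp [this.2, hA]⟩
    · have := (P.tower p.1).bd_of_mem_P hf
      exact ⟨fun u v => by simpa [dist_eq_norm, hA] using this.1 u v, this.2 0⟩
  have hw : ∀ m, 0 < ε m / A m := fun m => div_pos (hε m) (hA0 m)
  have hsum : ∀ M : Finset (Option (ℕ × ℕ)), ∑ m ∈ M, ε m ≤ 1 := fun M =>
    (sum_le_hasSum M (fun m _ => (hε m).le) hc).trans hc1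
  refine ⟨L1Sum 𝒞 fun m => ε m / A m, ?_, ⟨_, hw none, fun n f hf =>
    smul_mem_L1Sum (𝒞 := 𝒞) hw (P.Bas_sub_RR n hf)⟩, fun z hz => tame_L1Sum hw (fun hW => ?_) hz⟩
  · rintro _ ⟨M, a, f, haf, rfl⟩
    have key : ∀ (x : Option (ℕ × ℕ) → ℝ) (d : ℝ), 0 ≤ d → (∀ m ∈ M, |x m| ≤ A m * d) →
        |∑ m ∈ M, a m * x m| ≤ d := by
      intro x d hd hx
      calc _ ≤ ∑ m ∈ M, ε m * d := by
            refine (abs_sum_le_sum_abs _ _).trans (sum_le_sum fun m hm => ?_)
            rw [abs_mul]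
            refine (mul_le_mul (haf m hm).1 (hx m hm) (abs_nonneg _) (hw m).le).trans (le_of_eq ?_)
            have := hA0 m
            field_simp
        _ ≤ d := by
            rw [← sum_mul]
            have := hsum M
            nlinarith
    refine ⟨fun u v => ?_, ?_⟩
    · simp only [Finset.sum_apply, Pi.smul_apply, smul_eq_mul, ← sum_sub_distrib, ← mul_sub]
      exact key _ _ (norm_nonneg _) fun m hm => (hbd m _ (haf m hm).2).1 u v
    · simp only [Finset.sum_apply, Pi.smul_apply, smul_eq_mul]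
      exact key _ _ zero_le_one fun m hm => by simpa using (hbd m _ (haf m hm).2).2
  · have h1 : ∀ k j, Tame ((P.tower k).P j) z := fun k j =>
      (P.tower k).tame_P j z (hW (some (k, j + 1)))
    rintro (_ | p)
    · exact P.tame_RR (hW none) fun k =>
        (h1 k 0).mono (Set.iUnion_subset fun n => (P.tower k).B_sub_P n)
    · exact h1 p.1 p.2

end Setup

end Crest.Agent.R91
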