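import Crest.Agent.R91.Basic

/-!
# Row 91: the Banach space generated by molecules, normed by a class of Lipschitz functions
-/

set_option autoImplicit false

namespace Crest.Agent.R91

open Finset Filter TopologicalSpace
open scoped ENNReal

/-- No sequence is equivalent to the unit vector basis of `c₀` (in a strong sense). -/
def NoC0 (E : Type*) [NormedAddCommGroup E] [NormedSpace ℝ E] : Prop :=
  ∀ (y : ℕ → E) (W : ℝ), (∀ (s : Finset ℕ) (ε : ℕ → ℝ), (∀ i, |ε i| ≤ 1) →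
    ‖∑ i ∈ s, ε i • y i‖ ≤ W) → ∀ c : ℝ, 0 < c → ∃ i, ‖y i‖ < c

theorem NoC0.of_embedding {E F : Type*} [NormedAddCommGroup E] [NormedSpace ℝ E]
    [NormedAddCommGroup F] [NormedSpace ℝ F] (h : NoC0 F) (T : E →L[ℝ] F) {A : ℝ}
    (hT : ∀ x, ‖x‖ ≤ A * ‖T x‖) : NoC0 E := by
  intro y W hW c hc
  obtain ⟨i, hi⟩ := h (fun i => T (y i)) (‖T‖ * W) (fun s ε hε => by
    have := (T.le_opNorm (∑ i ∈ s, ε i • y i)).trans
      (mul_le_mul_of_nonneg_left (hW s ε hε) (norm_nonneg _))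
    simpa using this) (c / (|A| + 1)) (by positivity)
  refine ⟨i, (hT _).trans_lt ?_⟩
  rw [lt_div_iff₀ (by positivity)] at hi
  have := le_abs_self A
  have := norm_nonneg (T (y i))
  nlinarith

theorem exists_space {V' V : Type} [NormedAddCommGroup V'] [SeparableSpace V']
    [NormedAddCommGroup V] [NormedSpace ℝ V] [CompleteSpace V] (Γ : V' → V) (hΓ : Γ 0 = 0)
    (𝒩 : Set (V' → ℝ)) (h1 : ∀ f ∈ 𝒩, (∀ u v, |f u - f v| ≤ ‖u - v‖) ∧ |f 0| ≤ 1)
    {A : ℝ} (h2 : ∀ (z : V' →₀ ℝ) (a : ℝ), 0 ≤ a → (∀ f ∈ 𝒩, |pair f z| ≤ a) →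
      ‖Finsupp.linearCombination ℝ Γ z‖ ≤ A * a)
    (h3 : ∀ z, WUC 𝒩 z → Tame 𝒩 z) :
    ∃ (E : Type) (_ : NormedAddCommGroup E) (_ : NormedSpace ℝ E),
      CompleteSpace E ∧ SeparableSpace E ∧ NoC0 E ∧ ∃ (σ : V' → E) (Q : E →L[ℝ] V),
        σ 0 = 0 ∧ (∀ u v, ‖σ u - σ v‖ ≤ ‖u - v‖) ∧ ∀ v, Q (σ v) = Γ v := by
  set δ : V' → lp (fun _ : 𝒩 => ℝ) ∞ := fun v => ⟨fun f => f.1 v, memℓp_infty ⟨1 + ‖v‖, by
    rintro _ ⟨f, rfl⟩
    have h := (h1 f.1 f.2).1 v 0
    have h' := (h1 f.1 f.2).2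
    have := abs_sub_abs_le_abs_sub (f.1 v) (f.1 0)
    simp only [sub_zero] at h
    simp only [Real.norm_eq_abs]
    linarith⟩⟩ with hδ
  have hδlip : ∀ u v, ‖δ u - δ v‖ ≤ ‖u - v‖ := fun u v =>
    lp.norm_le_of_forall_le (norm_nonneg _) fun f => (h1 f.1 f.2).1 u v
  set ι := Finsupp.linearCombination ℝ δ with hι
  have hιa : ∀ z (f : 𝒩), ι z f = pair f.1 z := by
    intro z f
    rw [pair_apply, hι, Finsupp.linearCombination_apply, Finsupp.sum, lp.coeFn_sum,
      Finset.sum_apply]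
    rfl
  set E := (LinearMap.range ι).topologicalClosure with hE
  set e : (V' →₀ ℝ) →ₗ[ℝ] E := ι.codRestrict E fun z =>
    Submodule.le_topologicalClosure _ (LinearMap.mem_range_self ι z) with he
  have hdense : DenseRange e := by
    rw [DenseRange, Subtype.dense_iff]
    intro x hx
    refine closure_mono ?_ hx
    rintro _ ⟨z, rfl⟩
    exact ⟨e z, ⟨z, rfl⟩, rfl⟩
  have hnorm : ∀ z, ‖Finsupp.linearCombination ℝ Γ z‖ ≤ A * ‖e z‖ := fun z =>
    h2 z _ (norm_nonneg _) fun f hf => by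
      rw [← hιa z ⟨f, hf⟩]
      exact lp.norm_apply_le_norm (by simp) (ι z) ⟨f, hf⟩
  refine ⟨E, inferInstance, inferInstance, inferInstance, ?_, ?_,
    fun v => e (Finsupp.single v 1 - Finsupp.single 0 1),
    (Finsupp.linearCombination ℝ Γ).extendOfNorm e, by simp, fun u v => ?_, fun v => ?_⟩
  · have hc : Continuous δ :=
      (LipschitzWith.of_dist_le_mul (K := 1) fun u v => by
        simpa [dist_eq_norm] using hδlip u v).continuous
    have hs : IsSeparable (E : Set (lp (fun _ : 𝒩 => ℝ) ∞)) := by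
      rw [hE, hι, Finsupp.range_linearCombination]
      exact (isSeparable_range hc).span.closure
    exact hs.separableSpace
  · intro y W hW c hc
    have hz : ∀ i, ∃ z, ‖y i - e z‖ < c / 4 * (1 / 2) ^ i := fun i => by
      simpa [dist_eq_norm] using hdense.exists_dist_lt (y i)
        (ε := c / 4 * (1 / 2) ^ i) (by positivity)
    choose z hz using hz
    have hwuc : WUC 𝒩 z := by
      refine ⟨W + c / 4 * 2, fun f hf s => ?_⟩
      have e1 : ∀ i, |pair f (z i)| ≤ |(y i).1 ⟨f, hf⟩| + c / 4 * (1 / 2) ^ i := by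
        intro i
        have h4 := lp.norm_apply_le_norm (by simp) (y i - e (z i)).1 ⟨f, hf⟩
        have h5 : (y i - e (z i)).1 ⟨f, hf⟩ = (y i).1 ⟨f, hf⟩ - pair f (z i) := by
          rw [← hιa (z i) ⟨f, hf⟩]
          rfl
        rw [h5, Real.norm_eq_abs, abs_sub_comm] at h4
        have h6 := abs_sub_abs_le_abs_sub (pair f (z i)) ((y i).1 ⟨f, hf⟩)
        have h7 : ‖(y i - e (z i)).1‖ < _ := hz i
        linarith
      have e2 : ∑ i ∈ s, |(y i).1 ⟨f, hf⟩| ≤ W := by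
        have h4 := hW s (fun i => SignType.sign ((y i).1 ⟨f, hf⟩)) fun i => by
          rcases SignType.trichotomy (SignType.sign ((y i).1 ⟨f, hf⟩)) with h | h | h <;> simp [h]
        have h5 := lp.norm_apply_le_norm (by simp)
          (∑ i ∈ s, (SignType.sign ((y i).1 ⟨f, hf⟩) : ℝ) • y i).1 ⟨f, hf⟩
        have h6 : (∑ i ∈ s, (SignType.sign ((y i).1 ⟨f, hf⟩) : ℝ) • y i).1 ⟨f, hf⟩ =
            ∑ i ∈ s, |(y i).1 ⟨f, hf⟩| := by
          rw [Submodule.coe_sum, lp.coeFn_sum, Finset.sum_apply]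
          refine sum_congr rfl fun i _ => ?_
          rw [← sign_mul_self]
          rfl
        rw [h6] at h5
        exact (le_abs_self _).trans (h5.trans h4)
      have e3 : ∑ i ∈ s, (1 / 2 : ℝ) ^ i ≤ 2 :=
        sum_le_hasSum s (fun _ _ => by positivity) hasSum_geometric_two
      calc _ ≤ ∑ i ∈ s, (|(y i).1 ⟨f, hf⟩| + c / 4 * (1 / 2) ^ i) := sum_le_sum fun i _ => e1 i
        _ ≤ _ := by
          rw [sum_add_distrib, ← mul_sum]
          have := mul_le_mul_of_nonneg_left e3 (by positivity : 0 ≤ c / 4)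
          linarith
    obtain ⟨i, hi⟩ := (h3 z hwuc (c / 4) (by positivity)).exists
    refine ⟨i, ?_⟩
    have h4 : ‖e (z i)‖ ≤ c / 4 :=
      lp.norm_le_of_forall_le (f := ι (z i)) (by positivity) fun f => by
        rw [hιa]
        exact hi f.1 f.2
    have h5 := norm_add_le (y i - e (z i)) (e (z i))
    rw [sub_add_cancel] at h5
    have h6 : (1 / 2 : ℝ) ^ i ≤ 1 := pow_le_one₀ (by norm_num) (by norm_num)
    have := hz i
    nlinarith
  · rw [← map_sub, sub_sub_sub_cancel_right]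
    have : ‖e (Finsupp.single u 1 - Finsupp.single v 1)‖ = ‖δ u - δ v‖ := by
      change ‖ι _‖ = _
      simp [hι]
    rw [this]
    exact hδlip u v
  · rw [LinearMap.extendOfNorm_eq hdense ⟨A, hnorm⟩]
    simp [hΓ]

end Crest.Agent.R91
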