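import Crest.Agent.R91.Geom
import Crest.Agent.R91.Space

/-!
# Row 91: assembling the two spaces
-/

set_option autoImplicit false
set_option maxHeartbeats 400000

namespace Crest.Agent.R91

open Finset Filter Topology WithLp TopologicalSpace
open scoped ZeroAtInfty

section Radial

variable {A B : Type*} [NormedAddCommGroup A] [NormedSpace ℝ A] [NormedAddCommGroup B]
  [NormedSpace ℝ B]

/-- radial extension of a map defined on the unit ball -/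
noncomputable def rad (g : A → B) (v : A) : B := ‖v‖ • g (‖v‖⁻¹ • v)

theorem norm_unit_le (v : A) : ‖‖v‖⁻¹ • v‖ ≤ 1 := by
  rw [norm_smul, norm_inv, norm_norm]
  exact inv_mul_le_one_of_le₀ le_rfl (norm_nonneg _)

theorem smul_unit (v : A) : ‖v‖ • ‖v‖⁻¹ • v = v := by
  by_cases h : v = 0
  · simp [h]
  · rw [smul_inv_smul₀ (norm_ne_zero_iff.2 h)]

theorem rad_lip {g : A → B} {L : ℝ} (hL : 0 ≤ L) (h1 : ∀ a, ‖a‖ ≤ 1 → ‖g a‖ ≤ 1)
    (h2 : ∀ a b, ‖a‖ ≤ 1 → ‖b‖ ≤ 1 → ‖g a - g b‖ ≤ L * ‖a - b‖) (u v : A) :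
    ‖rad g u - rad g v‖ ≤ (1 + 2 * L) * ‖u - v‖ := by
  by_cases hu : u = 0
  · subst hu
    simp only [rad, norm_zero, zero_smul, zero_sub, norm_neg, norm_smul, norm_norm]
    have := h1 _ (norm_unit_le v)
    have := norm_nonneg v
    nlinarith [mul_nonneg hL this]
  have e : rad g u - rad g v = (‖u‖ - ‖v‖) • g (‖u‖⁻¹ • u) +
      ‖v‖ • (g (‖u‖⁻¹ • u) - g (‖v‖⁻¹ • v)) := by
    unfold rad
    module
  have h3 := abs_norm_sub_norm_le u v
  have h4 : ‖v‖ * ‖‖u‖⁻¹ • u - ‖v‖⁻¹ • v‖ ≤ 2 * ‖u - v‖ := by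
    have e1 : ‖v‖ • (‖u‖⁻¹ • u - ‖v‖⁻¹ • v) = (‖v‖ - ‖u‖) • ‖u‖⁻¹ • u + (u - v) := by
      rw [smul_sub, sub_smul, smul_unit, smul_unit]
      abel
    have e2 := norm_smul ‖v‖ (‖u‖⁻¹ • u - ‖v‖⁻¹ • v)
    rw [norm_norm] at e2
    rw [← e2, e1]
    refine (norm_add_le _ _).trans ?_
    rw [norm_smul, Real.norm_eq_abs, abs_sub_comm]
    have := mul_le_mul h3 (norm_unit_le u) (norm_nonneg _) (norm_nonneg _)
    linarith
  rw [e]
  refine (norm_add_le _ _).trans ?_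
  rw [norm_smul, norm_smul, norm_norm, Real.norm_eq_abs]
  have h5 := mul_le_mul h3 (h1 _ (norm_unit_le u)) (norm_nonneg _) (norm_nonneg _)
  have h6 := mul_le_mul_of_nonneg_left (h2 _ _ (norm_unit_le u) (norm_unit_le v)) (norm_nonneg v)
  have h7 := mul_le_mul_of_nonneg_left h4 hL
  nlinarith

theorem rad_inv {g : A → B} {h : B → A} (hn : ∀ a, ‖a‖ ≤ 1 → ‖g a‖ = ‖a‖)
    (hh : ∀ a, ‖a‖ ≤ 1 → h (g a) = a) (v : A) : rad h (rad g v) = v := by
  by_cases hv : v = 0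
  · simp [rad, hv]
  have h0 := norm_ne_zero_iff.2 hv
  have h1 : ‖rad g v‖ = ‖v‖ := by
    rw [rad, norm_smul, hn _ (norm_unit_le v), norm_smul, norm_inv, norm_norm,
      inv_mul_cancel₀ h0, mul_one]
  rw [rad, h1, rad, inv_smul_smul₀ h0, hh _ (norm_unit_le v), smul_unit]

end Radial

section Fibre

variable {A V E : Type*} [NormedAddCommGroup A] [NormedSpace ℝ A] [NormedAddCommGroup V]
  [NormedSpace ℝ V] [NormedAddCommGroup E] [NormedSpace ℝ E]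

/-- fibre product -/
def fib (π : A →L[ℝ] V) (Q : E →L[ℝ] V) : Submodule ℝ (A × E) where
  carrier := {p | π p.1 = Q p.2}
  add_mem' := fun {a b} ha hb => by
    simp only [Set.mem_ofPred_eq, Prod.fst_add, Prod.snd_add, map_add] at ha hb ⊢
    rw [ha, hb]
  zero_mem' := by simp
  smul_mem' := fun c a ha => by
    simp only [Set.mem_ofPred_eq, Prod.smul_fst, Prod.smul_snd, map_smul] at ha ⊢
    rw [ha]

theorem mem_fib {π : A →L[ℝ] V} {Q : E →L[ℝ] V} {p : A × E} : p ∈ fib π Q ↔ π p.1 = Q p.2 :=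
  Iff.rfl

theorem fib_complete [CompleteSpace A] [CompleteSpace E] (π : A →L[ℝ] V) (Q : E →L[ℝ] V) :
    CompleteSpace (fib π Q) :=
  (isClosed_eq (f := fun p : A × E => π p.1) (g := fun p => Q p.2) (by fun_prop)
    (by fun_prop)).completeSpace_coe

theorem fib_separable [SeparableSpace A] [SeparableSpace E] (π : A →L[ℝ] V) (Q : E →L[ℝ] V) :
    SeparableSpace (fib π Q) :=
  (IsSeparable.of_separableSpace (fib π Q : Set (A × E))).separableSpace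

theorem fib_noC0 (h : NoC0 E) (Q : E →L[ℝ] V) : NoC0 (fib (ContinuousLinearMap.id ℝ V) Q) := by
  refine h.of_embedding ((ContinuousLinearMap.snd ℝ V E).comp (Submodule.subtypeL _))
    (A := ‖Q‖ + 1) fun x => ?_
  have h1 : x.1.1 = Q x.1.2 := x.2
  have h2 := Q.le_opNorm x.1.2
  have h3 := norm_nonneg x.1.2
  have h4 := norm_nonneg Q
  change max ‖x.1.1‖ ‖x.1.2‖ ≤ (‖Q‖ + 1) * ‖x.1.2‖
  rw [h1]
  exact max_le (by linarith) (by nlinarith)

theorem glue (π : A →L[ℝ] V) (Q : E →L[ℝ] V) (G : A → V) (Gi : V → A) (σ : A → E)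
    (h1 : ∀ v, Gi (G v) = v) (h2 : ∀ y, G (Gi y) = y)
    (h3 : ∀ u v, ‖G u - G v‖ ≤ 76 / 25 * ‖u - v‖) (h4 : ∀ u v, ‖Gi u - Gi v‖ ≤ 76 / 25 * ‖u - v‖)
    (h5 : ∀ u v, ‖σ u - σ v‖ ≤ ‖u - v‖) (h6 : ∀ v, G v = π v + Q (σ v)) :
    ∃ Ψ : fib π Q → fib (ContinuousLinearMap.id ℝ V) Q, Function.Bijective Ψ ∧
      ∀ s t, (4 / 21 : ℝ) * ‖s - t‖ ≤ ‖Ψ s - Ψ t‖ ∧ ‖Ψ s - Ψ t‖ ≤ (76 / 25 : ℝ) * ‖s - t‖ := by
  let Ψ : fib π Q → fib (ContinuousLinearMap.id ℝ V) Q := fun s =>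
    ⟨(G s.1.1, s.1.2 + σ s.1.1), by
      rw [mem_fib, map_add, ← mem_fib.1 s.2]
      exact h6 _⟩
  have hb : ∀ s t, (4 / 21 : ℝ) * ‖s - t‖ ≤ ‖Ψ s - Ψ t‖ ∧
      ‖Ψ s - Ψ t‖ ≤ (76 / 25 : ℝ) * ‖s - t‖ := by
    intro s t
    have e1 : ‖s - t‖ = max ‖s.1.1 - t.1.1‖ ‖s.1.2 - t.1.2‖ := rfl
    have e2 : ‖Ψ s - Ψ t‖ =
        max ‖G s.1.1 - G t.1.1‖ ‖s.1.2 + σ s.1.1 - (t.1.2 + σ t.1.1)‖ := rfl
    have a1 := h3 s.1.1 t.1.1
    have a2 := h4 (G s.1.1) (G t.1.1)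
    rw [h1, h1] at a2
    have a3 := h5 s.1.1 t.1.1
    have a4 := norm_add_le (s.1.2 - t.1.2) (σ s.1.1 - σ t.1.1)
    have a5 := norm_sub_le (s.1.2 - t.1.2 + (σ s.1.1 - σ t.1.1)) (σ s.1.1 - σ t.1.1)
    rw [add_sub_cancel_right] at a5
    rw [add_sub_add_comm] at e2
    have b1 : ‖s.1.1 - t.1.1‖ ≤ ‖s - t‖ := e1 ▸ le_max_left _ _
    have b2 : ‖s.1.2 - t.1.2‖ ≤ ‖s - t‖ := e1 ▸ le_max_right _ _
    have b3 : ‖G s.1.1 - G t.1.1‖ ≤ ‖Ψ s - Ψ t‖ := e2 ▸ le_max_left _ _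
    have b4 : ‖s.1.2 - t.1.2 + (σ s.1.1 - σ t.1.1)‖ ≤ ‖Ψ s - Ψ t‖ := e2 ▸ le_max_right _ _
    have b5 := norm_nonneg (Ψ s - Ψ t)
    have b6 := norm_nonneg (s - t)
    constructor
    · have : ‖s - t‖ ≤ 21 / 4 * ‖Ψ s - Ψ t‖ := by
        rw [e1]
        exact max_le (by linarith) (by linarith)
      linarith
    · rw [e2]
      exact max_le (by linarith) (by linarith)
  refine ⟨Ψ, ⟨fun s t h => ?_, fun y => ?_⟩, hb⟩
  · have := (hb s t).1
    rw [h, sub_self, norm_zero] at this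
    exact sub_eq_zero.1 (norm_le_zero_iff.1 (by linarith))
  · refine ⟨⟨(Gi y.1.1, y.1.2 - σ (Gi y.1.1)), ?_⟩, Subtype.ext (Prod.ext (h2 _) (by simp [Ψ]))⟩
    have h7 := h6 (Gi y.1.1)
    have h8 : y.1.1 = Q y.1.2 := y.2
    rw [h2] at h7
    rw [mem_fib, map_sub, ← h8]
    exact eq_sub_of_add_eq h7.symm

end Fibre

section C0Maps

variable {H K : Type*} [NormedAddCommGroup H] [NormedSpace ℝ H] [NormedAddCommGroup K]
  [NormedSpace ℝ K]

/-- coordinatewise application of an operator -/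
noncomputable def C0.map (T : H →L[ℝ] K) : C₀(ℕ, H) →L[ℝ] C₀(ℕ, K) :=
  LinearMap.mkContinuous
    { toFun := fun v => mkC0 (fun n => T (v n)) (squeeze_zero (fun _ => norm_nonneg _)
        (fun n => T.le_opNorm _) (by simpa using (C0.tendsto v).const_mul ‖T‖))
      map_add' := fun u v => by ext; simp
      map_smul' := fun c v => by ext; simp } ‖T‖ fun v =>
    C0.norm_le (by positivity) fun n =>
      (T.le_opNorm _).trans (mul_le_mul_of_nonneg_left (C0.apply_le v n) (norm_nonneg _))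

@[simp] theorem C0.map_apply (T : H →L[ℝ] K) (v : C₀(ℕ, H)) (n : ℕ) : C0.map T v n = T (v n) :=
  rfl

omit [NormedSpace ℝ H] [NormedSpace ℝ K] in
theorem norm_toLp_le (x : H) (y : K) : ‖toLp 2 (x, y)‖ ≤ ‖x‖ + ‖y‖ := by
  refine (abs_le_of_sq_le_sq' ?_ (by positivity)).2
  rw [prod_norm_sq_eq_of_L2, toLp_fst, toLp_snd]
  nlinarith [mul_nonneg (norm_nonneg x) (norm_nonneg y)]

/-- coordinatewise pairing -/
noncomputable def C0.pair (x : C₀(ℕ, H)) (y : C₀(ℕ, K)) : C₀(ℕ, WithLp 2 (H × K)) :=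
  mkC0 (fun n => toLp 2 (x n, y n)) (squeeze_zero (fun _ => norm_nonneg _)
    (fun n => norm_toLp_le _ _) (by simpa using (C0.tendsto x).add (C0.tendsto y)))

omit [NormedSpace ℝ H] [NormedSpace ℝ K] in
@[simp] theorem C0.pair_apply (x : C₀(ℕ, H)) (y : C₀(ℕ, K)) (n : ℕ) :
    C0.pair x y n = toLp 2 (x n, y n) := rfl

omit [NormedSpace ℝ H] [NormedSpace ℝ K] in
theorem C0.pair_sub (x x' : C₀(ℕ, H)) (y y' : C₀(ℕ, K)) :
    C0.pair x y - C0.pair x' y' = C0.pair (x - x') (y - y') := by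
  ext n
  rfl

omit [NormedSpace ℝ H] [NormedSpace ℝ K] in
theorem C0.norm_pair (x : C₀(ℕ, H)) (y : C₀(ℕ, K)) :
    ‖x‖ ≤ ‖C0.pair x y‖ ∧ ‖y‖ ≤ ‖C0.pair x y‖ ∧ ‖C0.pair x y‖ ≤ ‖x‖ + ‖y‖ :=
  ⟨C0.norm_le (norm_nonneg _) fun n =>
      (WithLp.norm_fst_le H (C0.pair x y n)).trans (C0.apply_le _ n),
    C0.norm_le (norm_nonneg _) fun n =>
      (norm_snd_le (p := 2) H (C0.pair x y n)).trans (C0.apply_le _ n),
    C0.norm_le (by positivity) fun n =>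
      (norm_toLp_le _ _).trans (add_le_add (C0.apply_le x n) (C0.apply_le y n))⟩

theorem NoC0.not_embed {Y : Type*} [NormedAddCommGroup Y] [NormedSpace ℝ Y] (h : NoC0 Y)
    {x : H} (hx : x ≠ 0) (T : C₀(ℕ, H) →L[ℝ] Y) {A : ℝ} (hT : ∀ v, ‖v‖ ≤ A * ‖T v‖) : False := by
  obtain ⟨i, hi⟩ := h.of_embedding T hT (fun i => C0.single i x) ‖x‖ (fun s ε hε =>
    C0.norm_le (norm_nonneg _) fun n => by
      simp only [C0.sum_apply, ZeroAtInftyContinuousMap.smul_apply, C0.single_apply, smul_ite,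
        smul_zero, sum_ite_eq]
      split_ifs
      · rw [norm_smul]
        exact mul_le_of_le_one_left (norm_nonneg _) (hε n)
      · simp) ‖x‖ (norm_pos_iff.2 hx)
  have := C0.apply_le (C0.single i x) i
  rw [C0.single_apply, if_pos rfl] at this
  linarith

theorem NoC0.isEmpty_sub {Y : Type*} [NormedAddCommGroup Y] [NormedSpace ℝ Y] (h : NoC0 Y)
    {x : H} (hx : x ≠ 0) (S : Submodule ℝ Y) : IsEmpty (S ≃L[ℝ] C₀(ℕ, H)) :=
  ⟨fun T => h.not_embed hx (S.subtypeL.comp (T.symm : C₀(ℕ, H) →L[ℝ] S))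
    (A := ‖(T : S →L[ℝ] C₀(ℕ, H))‖) fun v => by
      simpa using (T : S →L[ℝ] C₀(ℕ, H)).le_opNorm (T.symm v)⟩

theorem NoC0.isEmpty_equiv {X Y : Type*} [NormedAddCommGroup X] [NormedSpace ℝ X]
    [NormedAddCommGroup Y] [NormedSpace ℝ Y] (h : NoC0 Y)
    {x : H} (hx : x ≠ 0) (i : C₀(ℕ, H) →ₗᵢ[ℝ] X) : IsEmpty (X ≃L[ℝ] Y) :=
  ⟨fun T => h.not_embed hx ((T : X →L[ℝ] Y).comp i.toContinuousLinearMap)
    (A := ‖(T.symm : Y →L[ℝ] X)‖) fun v => by
      simpa using (T.symm : Y →L[ℝ] X).le_opNorm (T (i v))⟩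

end C0Maps

section Main

variable {H : Type} [NormedAddCommGroup H] [NormedSpace ℝ H]
  (J : WithLp 2 (H × L2 ℕ) ≃ₗᵢ[ℝ] L2 ℕ) (e : ℕ → ℕ × Idx)

/-- the displacement as a map between `c₀`-spaces -/
noncomputable def GamC (v : C₀(ℕ, WithLp 2 (H × L2 Idx))) : C₀(ℕ, L2 Idx) :=
  mkC0 (Gam e J v) (squeeze_zero (fun _ => norm_nonneg _) (norm_Gam_le e J v)
    (by simpa using (C0.tendsto v).const_mul 2))

theorem GamC_apply (v : C₀(ℕ, WithLp 2 (H × L2 Idx))) (n : ℕ) : GamC J e v n = Gam e J v n := rfl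

theorem GamC_zero : GamC J e 0 = 0 :=
  norm_le_zero_iff.1 (C0.norm_le le_rfl fun n => by
    simpa [GamC_apply] using norm_Gam_le e J (0 : C₀(ℕ, _)) n)

/-- the map on the unit ball -/
noncomputable def gC (v : C₀(ℕ, WithLp 2 (H × L2 Idx))) : C₀(ℕ, L2 Idx) :=
  C0.map (sndL 2 ℝ H (L2 Idx)) v + GamC J e v

theorem gC_apply (v : C₀(ℕ, WithLp 2 (H × L2 Idx))) (n : ℕ) :
    gC J e v n = (v n).snd + Gam e J v n := rfl

theorem norm_gC {v : C₀(ℕ, WithLp 2 (H × L2 Idx))} (hv : ‖v‖ ≤ 1) : ‖gC J e v‖ = ‖v‖ := by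
  have h : ∀ n, ‖gC J e v n‖ = ‖v n‖ := fun n =>
    norm_rot_Gam e J ((C0.apply_le v n).trans hv)
  exact le_antisymm (C0.norm_le (norm_nonneg _) fun n => (h n).trans_le (C0.apply_le v n))
    (C0.norm_le (norm_nonneg _) fun n => (h n).symm.trans_le (C0.apply_le _ n))

theorem gC_lip {u v : C₀(ℕ, WithLp 2 (H × L2 Idx))} (hu : ‖u‖ ≤ 1) (hv : ‖v‖ ≤ 1) :
    ‖gC J e u - gC J e v‖ ≤ 51 / 50 * ‖u - v‖ ∧ ‖u - v‖ ≤ 51 / 50 * ‖gC J e u - gC J e v‖ := by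
  have h : ∀ n, |‖gC J e u n - gC J e v n‖ - ‖u n - v n‖| ≤ 64 / 10000 * ‖u - v‖ := fun n =>
    rot_est e J (C0.sub_le u v) n ((C0.apply_le u n).trans hu) ((C0.apply_le v n).trans hv)
  have h0 := norm_nonneg (u - v)
  have h1 := norm_nonneg (gC J e u - gC J e v)
  constructor
  · refine C0.norm_le (by positivity) fun n => ?_
    have := (abs_le.1 (h n)).2
    have := C0.sub_le u v n
    rw [ZeroAtInftyContinuousMap.sub_apply]
    linarith
  · have : ‖u - v‖ ≤ ‖gC J e u - gC J e v‖ + 64 / 10000 * ‖u - v‖ := by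
      refine C0.norm_le (by positivity) fun n => ?_
      have := (abs_le.1 (h n)).1
      have := C0.sub_le (gC J e u) (gC J e v) n
      rw [ZeroAtInftyContinuousMap.sub_apply]
      linarith
    linarith

theorem gC_surj (y : C₀(ℕ, L2 Idx)) (hy : ‖y‖ ≤ 1) :
    ∃ v : C₀(ℕ, WithLp 2 (H × L2 Idx)), ‖v‖ ≤ 1 ∧ gC J e v = y := by
  obtain ⟨v, hv⟩ := Gam_surj e J y fun n => (C0.apply_le y n).trans hy
  refine ⟨mkC0 v (by simpa only [fun n => (hv n).1] using C0.tendsto y),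
    C0.norm_le zero_le_one fun n => ?_, ?_⟩
  · exact (hv n).1.trans_le ((C0.apply_le y n).trans hy)
  · exact ZeroAtInftyContinuousMap.ext fun n => (hv n).2

theorem norm_comb_le (he : Function.Surjective e) (z : C₀(ℕ, WithLp 2 (H × L2 Idx)) →₀ ℝ) {a : ℝ}
    (ha : 0 ≤ a) (h : ∀ n, ∀ f ∈ Bas sc Set.univ ((setup e J he).R n), |pair f z| ≤ a) :
    ‖Finsupp.linearCombination ℝ (GamC J e) z‖ ≤ a := by
  refine C0.norm_le ha fun n => L2.norm_le ha fun S => ?_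
  set κ := Finsupp.linearCombination ℝ (GamC J e) z n with hκ
  have h1 : ∀ l, κ l = pair ((setup e J he).R n l) z := by
    intro l
    rw [pair_apply, hκ, Finsupp.linearCombination_apply, Finsupp.sum, C0.sum_apply, lp.coeFn_sum,
      Finset.sum_apply]
    rfl
  set b := √(∑ l ∈ S, κ l ^ 2) with hb
  have hb2 : b ^ 2 = ∑ l ∈ S, κ l ^ 2 := Real.sq_sqrt (sum_nonneg fun _ _ => sq_nonneg _)
  have hb0 : 0 ≤ b := Real.sqrt_nonneg _
  rw [← hb2]
  refine pow_le_pow_left₀ hb0 ?_ 2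
  rcases hb0.eq_or_lt with h0 | h0
  · exact h0 ▸ ha
  have h2 := h n _ ⟨S, fun l _ => κ l / b, fun l => |κ l / b|,
    ⟨fun l => measurable_const, fun l x => le_rfl, fun k => ?_⟩, fun _ _ => Set.mem_univ _, rfl⟩
  · have h3 : fn ((setup e J he).R n) S (fun l _ => κ l / b) =
        ∑ l ∈ S, (κ l / b) • (setup e J he).R n l := by
      ext v
      simp only [fn, intervalIntegral.integral_const, sub_zero, smul_eq_mul, Finset.sum_apply,
        Pi.smul_apply, mul_comm]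
    rw [h3, map_sum, LinearMap.sum_apply] at h2
    simp only [map_smul, LinearMap.smul_apply, smul_eq_mul, ← h1, div_mul_eq_mul_div, ← sq,
      ← sum_div, ← hb2] at h2
    rw [sq, mul_div_cancel_right₀ _ h0.ne'] at h2
    exact (le_abs_self _).trans h2
  · refine (sum_le_sum_of_subset_of_nonneg (filter_subset _ _) fun _ _ _ => sq_nonneg _).trans ?_
    simp only [sq_abs, div_pow, ← sum_div, ← hb2]
    exact div_self_le_one _

include J in
theorem main [CompleteSpace H] [SeparableSpace H] :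
    ∃ (X : Type) (_ : NormedAddCommGroup X) (_ : NormedSpace ℝ X)
      (Y : Type) (_ : NormedAddCommGroup Y) (_ : NormedSpace ℝ Y),
      CompleteSpace X ∧ SeparableSpace X ∧ CompleteSpace Y ∧ SeparableSpace Y ∧ NoC0 Y ∧
      (∃ Ψ : X → Y, Function.Bijective Ψ ∧
        ∀ s t : X, (4 / 21 : ℝ) * ‖s - t‖ ≤ ‖Ψ s - Ψ t‖ ∧ ‖Ψ s - Ψ t‖ ≤ (76 / 25 : ℝ) * ‖s - t‖) ∧
      Nonempty (C₀(ℕ, H) →ₗᵢ[ℝ] X) ∧
      ∃ T : Y × C₀(ℕ, H) → X, Function.Surjective T ∧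
        ∀ u v, ‖u - v‖ ≤ ‖T u - T v‖ ∧ ‖T u - T v‖ ≤ 2 * ‖u - v‖ := by
  obtain ⟨e, he⟩ := exists_surjective_nat (ℕ × Idx)
  have := L2.separable Idx
  have : SecondCountableTopology H := UniformSpace.secondCountable_of_separable _
  have : SecondCountableTopology (L2 Idx) := UniformSpace.secondCountable_of_separable _
  have := C0.separable (E := L2 Idx)
  have := C0.separable (E := WithLp 2 (H × L2 Idx))
  obtain ⟨𝒩, hN1, ⟨w, hw, hN2⟩, hN3⟩ := (setup e J he).exists_class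
  obtain ⟨E, _, _, _, _, hE, σ, Q, hσ0, hσ, hQ⟩ := exists_space (GamC J e) (GamC_zero J e) 𝒩 hN1
    (A := w⁻¹) (fun z a ha h => norm_comb_le J e he z (by positivity) fun n f hf => by
      have := h _ (hN2 n f hf)
      rw [map_smul, LinearMap.smul_apply, smul_eq_mul, abs_mul, abs_of_pos hw] at this
      rwa [le_inv_mul_iff₀ hw]) hN3
  set π := C0.map (sndL 2 ℝ H (L2 Idx)) with hπ
  choose! gi hgi1 hgi2 using gC_surj J e
  have hinv : ∀ v, ‖v‖ ≤ 1 → gi (gC J e v) = v := by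
    intro v hv
    have h1 : ‖gC J e v‖ ≤ 1 := (norm_gC J e hv).trans_le hv
    have h2 := (gC_lip J e (hgi1 _ h1) hv).2
    rw [hgi2 _ h1, sub_self, norm_zero, mul_zero] at h2
    exact sub_eq_zero.1 (norm_le_zero_iff.1 h2)
  have hΨ := glue π ((3 : ℝ) • Q) (rad (gC J e)) (rad gi) (fun v => (1 / 3 : ℝ) • rad σ v)
    (rad_inv (fun a ha => norm_gC J e ha) hinv)
    (rad_inv (fun b hb => by rw [← norm_gC J e (hgi1 b hb), hgi2 b hb]) hgi2)
    (fun u v => (rad_lip (L := 51 / 50) (by norm_num) (fun a ha => (norm_gC J e ha).trans_le ha)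
      (fun a b ha hb => (gC_lip J e ha hb).1) u v).trans_eq (by norm_num))
    (fun u v => (rad_lip (L := 51 / 50) (by norm_num) hgi1
      (fun a b ha hb => by
        have := (gC_lip J e (hgi1 a ha) (hgi1 b hb)).2
        rwa [hgi2 a ha, hgi2 b hb] at this) u v).trans_eq (by norm_num))
    (fun u v => by
      have := rad_lip (g := σ) (L := 1) zero_le_one (fun a ha => by
        have := hσ a 0
        rw [hσ0, sub_zero, sub_zero] at this
        exact this.trans ha) (fun a b _ _ => by simpa using hσ a b) u v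
      rw [← smul_sub, norm_smul]
      norm_num at this ⊢
      linarith)
    (fun v => by
      rw [_root_.smul_apply, map_smul, smul_smul, rad, rad, map_smul, hQ, gC, smul_add,
        ← map_smul, smul_unit, ← hπ]
      norm_num)
  refine ⟨fib π ((3 : ℝ) • Q), inferInstance, inferInstance,
    fib (ContinuousLinearMap.id ℝ _) ((3 : ℝ) • Q), inferInstance, inferInstance,
    fib_complete _ _, fib_separable _ _, fib_complete _ _, fib_separable _ _, fib_noC0 hE _, hΨ,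
    ⟨?_⟩, fun u => ⟨(C0.pair u.2 u.1.1.1, u.1.1.2), u.1.2⟩, fun x => ?_, fun u v => ?_⟩
  · exact
      { toFun := fun x => ⟨(C0.pair x 0, 0), by
          rw [mem_fib, map_zero]
          rfl⟩
        map_add' := fun x y => Subtype.ext (Prod.ext (by
          ext1 n
          change toLp 2 (x n + y n, (0 : L2 Idx)) = toLp 2 (x n + y n, 0 + 0)
          rw [add_zero]) (add_zero _).symm)
        map_smul' := fun c x => Subtype.ext (Prod.ext (by
          ext1 n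
          change toLp 2 (c • x n, (0 : L2 Idx)) = toLp 2 (c • x n, c • 0)
          rw [smul_zero]) (smul_zero _).symm)
        norm_map' := fun x => by
          change max ‖C0.pair x (0 : C₀(ℕ, L2 Idx))‖ ‖(0 : E)‖ = ‖x‖
          have := C0.norm_pair x (0 : C₀(ℕ, L2 Idx))
          rw [norm_zero, max_eq_left (norm_nonneg _)]
          rw [norm_zero, add_zero] at this
          exact le_antisymm this.2.2 this.1 }
  · exact ⟨(⟨(π x.1.1, x.1.2), x.2⟩, C0.map (fstL 2 ℝ H (L2 Idx)) x.1.1), rfl⟩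
  · change max (max ‖u.1.1.1 - v.1.1.1‖ ‖u.1.1.2 - v.1.1.2‖) ‖u.2 - v.2‖ ≤
      max ‖C0.pair u.2 u.1.1.1 - C0.pair v.2 v.1.1.1‖ ‖u.1.1.2 - v.1.1.2‖ ∧
      max ‖C0.pair u.2 u.1.1.1 - C0.pair v.2 v.1.1.1‖ ‖u.1.1.2 - v.1.1.2‖ ≤
      2 * max (max ‖u.1.1.1 - v.1.1.1‖ ‖u.1.1.2 - v.1.1.2‖) ‖u.2 - v.2‖
    rw [C0.pair_sub]
    obtain ⟨h1, h2, h3⟩ := C0.norm_pair (u.2 - v.2) (u.1.1.1 - v.1.1.1)
    have h4 := le_max_left (max ‖u.1.1.1 - v.1.1.1‖ ‖u.1.1.2 - v.1.1.2‖) ‖u.2 - v.2‖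
    have h5 := le_max_right (max ‖u.1.1.1 - v.1.1.1‖ ‖u.1.1.2 - v.1.1.2‖) ‖u.2 - v.2‖
    have h6 := le_max_left ‖u.1.1.1 - v.1.1.1‖ ‖u.1.1.2 - v.1.1.2‖
    have h7 := le_max_right ‖u.1.1.1 - v.1.1.1‖ ‖u.1.1.2 - v.1.1.2‖
    have h8 := norm_nonneg (u.1.1.2 - v.1.1.2)
    exact ⟨max_le (max_le (le_max_of_le_left h2) (le_max_right _ _)) (le_max_of_le_left h1),
      max_le (by linarith) (by linarith)⟩

end Main

end Crest.Agent.R91
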