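import Mathlib

/-!
# Row 91: Hilbert-space ingredients (tensor embeddings, rotations, `ℓ²`-sums, `c₀`)
-/

set_option autoImplicit false

namespace Crest.Agent.R91

open Finset Filter Topology TopologicalSpace WithLp ContinuousLinearMap
open scoped ZeroAtInfty

/-- real `ℓ²` -/
abbrev L2 (α : Type*) := lp (fun _ : α => ℝ) 2

theorem L2.hasSum_sq {α : Type*} (f : L2 α) : HasSum (fun i => f i ^ 2) (‖f‖ ^ 2) := by
  simpa using lp.hasSum_norm (p := 2) (by simp) f

theorem L2.mem {α : Type*} {f : α → ℝ} (h : Summable fun i => f i ^ 2) :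
    Memℓp (E := fun _ : α => ℝ) f 2 := memℓp_gen (by simpa using h)

theorem L2.norm_eq {α : Type*} {f : L2 α} {a : ℝ} (ha : 0 ≤ a)
    (h : HasSum (fun i => f i ^ 2) (a ^ 2)) : ‖f‖ = a :=
  (pow_left_inj₀ (norm_nonneg _) ha two_ne_zero).1 ((L2.hasSum_sq f).unique h)

theorem L2.sum_sq_le {α : Type*} (f : L2 α) (S : Finset α) : ∑ i ∈ S, f i ^ 2 ≤ ‖f‖ ^ 2 :=
  sum_le_hasSum S (fun _ _ => sq_nonneg _) (L2.hasSum_sq f)

theorem L2.norm_le {α : Type*} {f : L2 α} {a : ℝ} (ha : 0 ≤ a)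
    (h : ∀ S : Finset α, ∑ i ∈ S, f i ^ 2 ≤ a ^ 2) : ‖f‖ ≤ a :=
  (abs_le_of_sq_le_sq' (hasSum_le_of_sum_le (L2.hasSum_sq f) h) ha).2

theorem L2.abs_apply_le {α : Type*} (f : L2 α) (i : α) : |f i| ≤ ‖f‖ :=
  lp.norm_apply_le_norm (by simp) f i

theorem tens_hasSum {α β : Type*} (ω : L2 α) (w : L2 β) :
    HasSum (fun l : α × β => (ω l.1 * w l.2) ^ 2) ((‖ω‖ * ‖w‖) ^ 2) := by
  simp only [mul_pow]
  exact (L2.hasSum_sq ω).mul (L2.hasSum_sq w) ((L2.hasSum_sq ω).summable.mul_of_nonneg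
    (L2.hasSum_sq w).summable (fun _ => sq_nonneg _) fun _ => sq_nonneg _)

/-- tensor product of two `ℓ²` vectors -/
def tens₀ {α β : Type*} (ω : L2 α) (w : L2 β) : L2 (α × β) :=
  ⟨fun l => ω l.1 * w l.2, L2.mem (tens_hasSum ω w).summable⟩

theorem norm_tens₀ {α β : Type*} (ω : L2 α) (w : L2 β) : ‖tens₀ ω w‖ = ‖ω‖ * ‖w‖ :=
  L2.norm_eq (by positivity) (tens_hasSum ω w)

/-- tensor product as a bounded bilinear map -/
noncomputable def tens (α β : Type*) : L2 α →L[ℝ] L2 β →L[ℝ] L2 (α × β) :=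
  LinearMap.mkContinuous₂ (LinearMap.mk₂ ℝ tens₀
    (fun a b w => lp.ext (funext fun l => add_mul (a l.1) (b l.1) (w l.2)))
    (fun c a w => lp.ext (funext fun l => mul_assoc c (a l.1) (w l.2)))
    (fun a w w' => lp.ext (funext fun l => mul_add (a l.1) (w l.2) (w' l.2)))
    (fun c a w => lp.ext (funext fun l => mul_left_comm (a l.1) c (w l.2)))) 1
    fun ω w => by simp [norm_tens₀]

theorem tens_apply {α β : Type*} (ω : L2 α) (w : L2 β) (l : α × β) :
    tens α β ω w l = ω l.1 * w l.2 := rfl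

theorem norm_tens {α β : Type*} (ω : L2 α) (w : L2 β) : ‖tens α β ω w‖ = ‖ω‖ * ‖w‖ :=
  norm_tens₀ ω w

theorem opNorm_tens_le {α β : Type*} (ω : L2 α) : ‖tens α β ω‖ ≤ ‖ω‖ :=
  opNorm_le_bound _ (norm_nonneg _) fun w => (norm_tens ω w).le

section Rotation

variable {H W K : Type*} [NormedAddCommGroup H] [NormedSpace ℝ H]
  [NormedAddCommGroup W] [InnerProductSpace ℝ W] [CompleteSpace W]
  [NormedAddCommGroup K] [InnerProductSpace ℝ K] [CompleteSpace K]
  (J : WithLp 2 (H × W) ≃ₗᵢ[ℝ] W)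

/-- the displacement of the rotation attached to `a` -/
noncomputable def gam (a : W →L[ℝ] K) (p : WithLp 2 (H × K)) : K :=
  a (J (toLp 2 (p.fst, adjoint a p.snd)) - adjoint a p.snd)

theorem gam_sub (a : W →L[ℝ] K) (p q : WithLp 2 (H × K)) :
    gam J a (p - q) = gam J a p - gam J a q := by
  have : toLp 2 ((p - q).fst, adjoint a (p - q).snd) =
      toLp 2 (p.fst, adjoint a p.snd) - toLp 2 (q.fst, adjoint a q.snd) := by
    rw [sub_snd, map_sub]
    rfl
  rw [gam, this]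
  simp only [gam, map_sub, sub_snd]
  abel

theorem gam_zero (a : W →L[ℝ] K) : gam J a 0 = 0 := by
  simpa using gam_sub J a 0 0

theorem norm_adj_le (a : W →L[ℝ] K) (κ : K) : ‖adjoint a κ‖ ≤ ‖a‖ * ‖κ‖ := by
  simpa using (adjoint a).le_opNorm κ

omit [CompleteSpace W] in
theorem norm_J_sq (x : H) (w : W) : ‖J (toLp 2 (x, w))‖ ^ 2 = ‖x‖ ^ 2 + ‖w‖ ^ 2 := by
  rw [J.norm_map, prod_norm_sq_eq_of_L2]
  simp

theorem norm_inner_le {a : W →L[ℝ] K} (ha : ‖a‖ ≤ 1) (p : WithLp 2 (H × K)) :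
    ‖J (toLp 2 (p.fst, adjoint a p.snd)) - adjoint a p.snd‖ ≤ 2 * ‖p‖ := by
  have h1 : ‖adjoint a p.snd‖ ≤ ‖p.snd‖ :=
    (norm_adj_le a _).trans (mul_le_of_le_one_left (norm_nonneg _) ha)
  have h2 : ‖J (toLp 2 (p.fst, adjoint a p.snd))‖ ≤ ‖p‖ := by
    refine (abs_le_of_sq_le_sq' ?_ (norm_nonneg _)).2
    rw [norm_J_sq, prod_norm_sq_eq_of_L2]
    have := pow_le_pow_left₀ (norm_nonneg _) h1 2
    linarith
  have h3 := norm_snd_le (p := 2) H p
  have h4 := norm_sub_le (J (toLp 2 (p.fst, adjoint a p.snd))) (adjoint a p.snd)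
  linarith

theorem norm_gam_le {a : W →L[ℝ] K} (ha : ‖a‖ ≤ 1) (p : WithLp 2 (H × K)) :
    ‖gam J a p‖ ≤ 2 * ‖p‖ :=
  (a.le_opNorm _).trans ((mul_le_of_le_one_left (norm_nonneg _) ha).trans (norm_inner_le J ha p))

theorem norm_gam_sub_le {a b : W →L[ℝ] K} (ha : ‖a‖ ≤ 1) (hb : ‖b‖ ≤ 1) (p : WithLp 2 (H × K)) :
    ‖gam J a p - gam J b p‖ ≤ 4 * ‖a - b‖ * ‖p‖ := by
  have e : gam J a p - gam J b p =
      (a - b) (J (toLp 2 (p.fst, adjoint a p.snd)) - adjoint a p.snd) +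
        b (J (toLp 2 (0, adjoint (a - b) p.snd)) - adjoint (a - b) p.snd) := by
    have : toLp 2 ((0 : H), adjoint (a - b) p.snd) =
        toLp 2 (p.fst, adjoint a p.snd) - toLp 2 (p.fst, adjoint b p.snd) := by
      rw [← toLp_sub]
      simp
    rw [this]
    simp only [gam, map_sub, sub_apply]
    abel
  rw [e]
  have h1 := ((a - b).le_opNorm _).trans
    (mul_le_mul_of_nonneg_left (norm_inner_le J ha p) (norm_nonneg _))
  have h2 : ‖adjoint (a - b) p.snd‖ ≤ ‖a - b‖ * ‖p‖ :=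
    (norm_adj_le _ _).trans (mul_le_mul_of_nonneg_left (norm_snd_le (p := 2) H p) (norm_nonneg _))
  have h3 : ‖b (J (toLp 2 (0, adjoint (a - b) p.snd)) - adjoint (a - b) p.snd)‖ ≤
      2 * (‖a - b‖ * ‖p‖) := by
    refine (b.le_opNorm _).trans ((mul_le_of_le_one_left (norm_nonneg _) hb).trans ?_)
    refine (norm_sub_le _ _).trans ?_
    rw [J.norm_map, norm_toLp_snd]
    linarith
  refine (norm_add_le _ _).trans ?_
  linarith

theorem norm_rot {a : W →L[ℝ] K} (ha : ∀ w, ‖a w‖ = ‖w‖) (p : WithLp 2 (H × K)) :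
    ‖p.snd + gam J a p‖ = ‖p‖ := by
  refine (pow_left_inj₀ (norm_nonneg _) (norm_nonneg _) two_ne_zero).1 ?_
  rw [gam, norm_add_sq_real, ha, norm_sub_sq_real, norm_J_sq, ← adjoint_inner_left,
    inner_sub_right, real_inner_self_eq_norm_sq, real_inner_comm, prod_norm_sq_eq_of_L2]
  ring

theorem rot_surj {a : W →L[ℝ] K} (ha : ∀ w, ‖a w‖ = ‖w‖) (y : K) :
    ∃ p : WithLp 2 (H × K), p.snd + gam J a p = y := by
  have h1 : ∀ w, adjoint a (a w) = w := fun w =>
    congrArg (fun T : W →L[ℝ] W => T w) ((norm_map_iff_adjoint_comp_self a).1 ha)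
  set q := J.symm (adjoint a y) with hq
  refine ⟨toLp 2 (q.fst, y + a (q.snd - adjoint a y)), ?_⟩
  have h2 : adjoint a (y + a (q.snd - adjoint a y)) = q.snd := by
    rw [map_add, h1]
    abel
  have h3 : J (toLp 2 (q.fst, q.snd)) = adjoint a y := J.apply_symm_apply _
  change y + a (q.snd - adjoint a y) + a (J (toLp 2 (q.fst, adjoint a (y + a (q.snd - adjoint a y))))
    - adjoint a (y + a (q.snd - adjoint a y))) = y
  rw [h2, h3, map_sub, map_sub]
  abel

end Rotation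

theorem sumIso_hasSum {I : Type*} (e : ℕ ≃ I ⊕ ℕ) (p : WithLp 2 (L2 I × L2 ℕ)) :
    HasSum (fun n => Sum.elim (p.fst : I → ℝ) (p.snd : ℕ → ℝ) (e n) ^ 2) (‖p‖ ^ 2) := by
  rw [prod_norm_sq_eq_of_L2]
  refine (e.hasSum_iff (f := fun s => Sum.elim (p.fst : I → ℝ) (p.snd : ℕ → ℝ) s ^ 2)).2 ?_
  exact HasSum.sum (L2.hasSum_sq p.fst) (L2.hasSum_sq p.snd)

theorem exists_J {H I : Type*} [NormedAddCommGroup H] [NormedSpace ℝ H] (b : H ≃ₗᵢ[ℝ] L2 I)
    (e : ℕ ≃ I ⊕ ℕ) : Nonempty (WithLp 2 (H × L2 ℕ) ≃ₗᵢ[ℝ] L2 ℕ) := by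
  let T : WithLp 2 (L2 I × L2 ℕ) →ₗᵢ[ℝ] L2 ℕ :=
    { toFun := fun p => ⟨fun n => Sum.elim (p.fst : I → ℝ) (p.snd : ℕ → ℝ) (e n),
        L2.mem (sumIso_hasSum e p).summable⟩
      map_add' := fun p q => lp.ext (funext fun n => by
        change Sum.elim ((p + q).fst : I → ℝ) ((p + q).snd : ℕ → ℝ) (e n) =
          Sum.elim (p.fst : I → ℝ) (p.snd : ℕ → ℝ) (e n) +
            Sum.elim (q.fst : I → ℝ) (q.snd : ℕ → ℝ) (e n)
        cases e n <;> rfl)
      map_smul' := fun c p => lp.ext (funext fun n => by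
        change Sum.elim ((c • p).fst : I → ℝ) ((c • p).snd : ℕ → ℝ) (e n) =
          c * Sum.elim (p.fst : I → ℝ) (p.snd : ℕ → ℝ) (e n)
        cases e n <;> rfl)
      norm_map' := fun p => L2.norm_eq (norm_nonneg _) (sumIso_hasSum e p) }
  have hT : Function.Surjective T := by
    intro y
    have hy := (L2.hasSum_sq y).summable
    refine ⟨toLp 2 (⟨fun i => y (e.symm (Sum.inl i)), L2.mem
      (hy.comp_injective (e.symm.injective.comp Sum.inl_injective))⟩,
      ⟨fun i => y (e.symm (Sum.inr i)), L2.mem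
      (hy.comp_injective (e.symm.injective.comp Sum.inr_injective))⟩), lp.ext (funext fun n => ?_)⟩
    change Sum.elim (fun i => y (e.symm (Sum.inl i))) (fun i => y (e.symm (Sum.inr i))) (e n) = y n
    obtain ⟨s, rfl⟩ := e.symm.surjective n
    cases s <;> simp
  exact ⟨(b.withLpProdCongr 2 (LinearIsometryEquiv.refl ℝ _)).trans
    (LinearIsometryEquiv.ofSurjective T hT)⟩

theorem L2.separable (α : Type*) [Countable α] : SeparableSpace (L2 α) := by
  classical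
  have h1 : IsSeparable (Set.range fun i : α => (lp.single 2 i (1 : ℝ) : L2 α)) :=
    (Set.countable_range _).isSeparable
  refine isSeparable_univ_iff.1 ((h1.span (R := ℝ)).closure.mono fun f _ => ?_)
  refine mem_closure_of_tendsto (lp.hasSum_single (by simp) f) (Eventually.of_forall fun s => ?_)
  refine Submodule.sum_mem _ fun i _ => ?_
  have : (lp.single 2 i (f i) : L2 α) = f i • lp.single 2 i (1 : ℝ) := by
    rw [← lp.single_smul]
    simp
  rw [this]
  exact Submodule.smul_mem _ _ (Submodule.subset_span ⟨i, rfl⟩)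

section C0

variable {E : Type*} [NormedAddCommGroup E]

/-- a null sequence as an element of `c₀` -/
def mkC0 (f : ℕ → E) (hf : Tendsto (fun n => ‖f n‖) atTop (𝓝 0)) : C₀(ℕ, E) :=
  ⟨⟨f, continuous_of_discreteTopology⟩, by
    rw [cocompact_eq_cofinite, Nat.cofinite_eq_atTop]
    exact tendsto_zero_iff_norm_tendsto_zero.2 hf⟩

@[simp] theorem mkC0_apply (f : ℕ → E) (hf : Tendsto (fun n => ‖f n‖) atTop (𝓝 0)) (n : ℕ) :
    mkC0 f hf n = f n := rfl

theorem C0.tendsto (v : C₀(ℕ, E)) : Tendsto (fun n => ‖v n‖) atTop (𝓝 0) := by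
  have := zero_at_infty v
  rw [cocompact_eq_cofinite, Nat.cofinite_eq_atTop] at this
  exact tendsto_zero_iff_norm_tendsto_zero.1 this

theorem C0.apply_le (v : C₀(ℕ, E)) (n : ℕ) : ‖v n‖ ≤ ‖v‖ := v.toBCF.norm_coe_le_norm n

theorem C0.norm_le {v : C₀(ℕ, E)} {a : ℝ} (ha : 0 ≤ a) (h : ∀ n, ‖v n‖ ≤ a) : ‖v‖ ≤ a :=
  (BoundedContinuousFunction.norm_le (f := v.toBCF) ha).2 h

theorem C0.sub_le (u v : C₀(ℕ, E)) (n : ℕ) : ‖u n - v n‖ ≤ ‖u - v‖ := C0.apply_le (u - v) n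

theorem C0.sum_apply {ι : Type*} (s : Finset ι) (f : ι → C₀(ℕ, E)) (n : ℕ) :
    (∑ i ∈ s, f i) n = ∑ i ∈ s, f i n := by
  classical
  induction s using Finset.induction_on with
  | empty => simp
  | insert a s ha ih => simp [sum_insert ha, ih]

/-- the unit vectors of `c₀(E)` -/
def C0.single (n : ℕ) (x : E) : C₀(ℕ, E) :=
  mkC0 (fun m => if m = n then x else 0) (tendsto_const_nhds.congr' (by
    filter_upwards [eventually_gt_atTop n] with m hm
    simp [hm.ne']))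

theorem C0.single_apply (n : ℕ) (x : E) (m : ℕ) : C0.single n x m = if m = n then x else 0 := rfl

theorem C0.separable [NormedSpace ℝ E] [SeparableSpace E] : SeparableSpace C₀(ℕ, E) := by
  have hc : ∀ n, Continuous (C0.single (E := E) n) := fun n =>
    (LipschitzWith.of_dist_le_mul (K := 1) fun x y => by
      simp only [dist_eq_norm, NNReal.coe_one, one_mul]
      refine C0.norm_le (norm_nonneg _) fun m => ?_
      simp only [ZeroAtInftyContinuousMap.sub_apply, C0.single_apply]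
      split_ifs <;> simp).continuous
  have h1 : IsSeparable (⋃ n, Set.range (C0.single (E := E) n)) :=
    IsSeparable.iUnion fun n => isSeparable_range (hc n)
  refine isSeparable_univ_iff.1 ((h1.span (R := ℝ)).closure.mono fun f _ => ?_)
  refine Metric.mem_closure_iff.2 fun ε hε => ?_
  obtain ⟨N, hN⟩ := eventually_atTop.1 ((C0.tendsto f).eventually (gt_mem_nhds (half_pos hε)))
  refine ⟨∑ n ∈ range N, C0.single n (f n), Submodule.sum_mem _ fun n _ =>
    Submodule.subset_span (Set.mem_iUnion.2 ⟨n, f n, rfl⟩), ?_⟩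
  rw [dist_eq_norm]
  refine (C0.norm_le (half_pos hε).le fun m => ?_).trans_lt (half_lt_self hε)
  simp only [ZeroAtInftyContinuousMap.sub_apply, C0.sum_apply, C0.single_apply, sum_ite_eq,
    mem_range]
  split_ifs with h
  · simpa using (half_pos hε).le
  · simpa using (hN m (not_lt.1 h)).le

end C0

end Crest.Agent.R91
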