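import Crest.Agent.R91.Omega
import Crest.Agent.R91.Rot

/-!
# Row 91: the history-dependent rotations
-/

set_option autoImplicit false
set_option maxHeartbeats 400000

namespace Crest.Agent.R91

open Finset Filter Topology WithLp Real
open scoped ZeroAtInfty

/-- the mesh at scale `k` -/
noncomputable def sk (k : ℕ) : ℝ := 10000 * exp 10000 * (2 * exp (-10000)) ^ k

theorem sk_pos (k : ℕ) : 0 < sk k := by
  unfold sk
  positivity

theorem sk_summable : Summable fun k : ℕ => (16 : ℝ) ^ k * (k * sk k) := by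
  have h1 : exp (-10000) ≤ 1 / 100 := by
    rw [exp_neg, one_div]
    exact inv_anti₀ (by norm_num) (by linarith [add_one_le_exp 10000])
  have h2 : ‖(16 * (2 * exp (-10000)) : ℝ)‖ < 1 := by
    rw [Real.norm_eq_abs, abs_of_pos (by positivity)]
    linarith
  refine ((summable_pow_mul_geometric_of_norm_lt_one 1 h2).mul_left
    (10000 * exp 10000)).congr fun k => ?_
  simp only [sk, mul_pow]
  ring

/-- logarithmic scale -/
noncomputable def Tf (r : ℝ) : ℝ := -log r / 10000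

theorem Tf_nonneg {r : ℝ} (h0 : 0 ≤ r) (h1 : r ≤ 1) : 0 ≤ Tf r :=
  div_nonneg (neg_nonneg.2 (log_nonpos h0 h1)) (by norm_num)

theorem lt_of_β {r : ℝ} (hr : 0 < r) {k : ℕ} (h : β k (Tf r) ≠ 0) :
    exp (-10000 * (k + 1)) < r ∧ r < exp 10000 * exp (-10000) ^ k := by
  have h1 := abs_lt.1 (β_ne_zero h)
  simp only [Tf, Int.cast_natCast] at h1
  constructor
  · rw [← lt_log_iff_exp_lt hr]
    linarith [h1.2]
  · rw [← exp_nat_mul, ← exp_add, ← log_lt_iff_lt_exp hr]
    linarith [h1.1]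

variable (e : ℕ → ℕ × Idx)

/-- the unit vector attached to a radius and a history -/
noncomputable def omega (r : ℝ) (G : ℕ → L2 Idx) : L2 Cell :=
  om (Tf r) fun k t => G (e t).1 (e t).2 / sk k

theorem omega_est {r r' D : ℝ} (h0 : 0 ≤ r) (hr : r ≤ r') (hD : 0 ≤ D) {G G' : ℕ → L2 Idx}
    (hG : ∀ m, ‖G m - G' m‖ ≤ D) :
    ‖omega e r G - omega e r' G'‖ * r ≤ 4 / 10000 * (r' - r + D) := by
  rcases h0.eq_or_lt with rfl | h0
  · rw [mul_zero]
    exact mul_nonneg (by norm_num) (by linarith)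
  have h1 := norm_om_sub_sq (T := Tf r) (T' := Tf r') (D := D / (10000 * r))
    (x := fun k t => G (e t).1 (e t).2 / sk k) (x' := fun k t => G' (e t).1 (e t).2 / sk k)
    fun k hk _ => by
      have h2 := (lt_of_β h0 hk).2
      have h3 : 10000 * r * 2 ^ k ≤ sk k := by
        rw [sk, mul_pow]
        have : (0 : ℝ) < 2 ^ k := by positivity
        nlinarith
      have h4 : ∀ t : Fin k, (G (e t).1 (e t).2 / sk k - G' (e t).1 (e t).2 / sk k) ^ 2 ≤
          (D / (10000 * r * 2 ^ k)) ^ 2 := by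
        intro t
        refine sq_le_sq.2 ?_
        rw [← sub_div, abs_div, abs_of_pos (sk_pos k),
          abs_of_nonneg (a := D / (10000 * r * 2 ^ k)) (by positivity)]
        exact div_le_div₀ hD ((L2.abs_apply_le (G (e t).1 - G' (e t).1) (e t).2).trans (hG _))
          (by positivity) h3
      refine (sum_le_sum fun t _ => h4 t).trans ?_
      rw [sum_const, card_univ, Fintype.card_fin, nsmul_eq_mul, ← div_div, div_pow]
      have h5 : (k : ℝ) ≤ 2 ^ k := by exact_mod_cast Nat.lt_two_pow_self.le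
      have h6 : (1 : ℝ) ≤ 2 ^ k := one_le_pow₀ one_le_two
      rw [← mul_div_assoc, div_le_iff₀ (by positivity)]
      have := sq_nonneg (D / (10000 * r))
      have h7 : (k : ℝ) ≤ (2 ^ k) ^ 2 := by nlinarith
      nlinarith
  have h2 : |Tf r - Tf r'| ≤ (r' - r) / (10000 * r) := by
    have h3 : log r ≤ log r' := log_le_log h0 hr
    have h4 : log r' - log r ≤ r' / r - 1 := by
      rw [← log_div (by linarith) h0.ne']
      exact log_le_sub_one_of_pos (div_pos (by linarith) h0)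
    rw [abs_of_nonneg (by unfold Tf; linarith)]
    have : (r' - r) / (10000 * r) = (r' / r - 1) / 10000 := by field_simp
    rw [this]
    unfold Tf
    linarith
  have h3 : (Tf r - Tf r') ^ 2 ≤ ((r' - r) / (10000 * r)) ^ 2 :=
    sq_le_sq.2 (h2.trans (le_abs_self _))
  have h4 : 0 ≤ (r' - r) / (10000 * r) := div_nonneg (by linarith) (by positivity)
  have h5 : 0 ≤ D / (10000 * r) := by positivity
  have h6 : ‖omega e r G - omega e r' G'‖ ≤ 4 * ((r' - r) / (10000 * r) + D / (10000 * r)) :=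
    (abs_le_of_sq_le_sq' (h1.trans (by nlinarith [mul_nonneg h4 h5])) (by positivity)).2
  refine (mul_le_mul_of_nonneg_right h6 h0.le).trans (le_of_eq ?_)
  field_simp

variable {H : Type*} [NormedAddCommGroup H] [NormedSpace ℝ H]
  (J : WithLp 2 (H × L2 ℕ) ≃ₗᵢ[ℝ] L2 ℕ)

/-- the embedding attached to a radius and a history -/
noncomputable def emb (r : ℝ) (G : ℕ → L2 Idx) : L2 ℕ →L[ℝ] L2 Idx := tens Cell ℕ (omega e r G)

theorem emb_le (r : ℝ) (G : ℕ → L2 Idx) : ‖emb e r G‖ ≤ 1 :=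
  (opNorm_tens_le _).trans (norm_om_le _ _)

theorem emb_iso {r : ℝ} (h0 : 0 ≤ r) (h1 : r ≤ 1) (G : ℕ → L2 Idx) (w : L2 ℕ) :
    ‖emb e r G w‖ = ‖w‖ := by
  rw [emb, norm_tens, omega, norm_om_eq (Tf_nonneg h0 h1), one_mul]

/-- one step of the construction -/
noncomputable def step (G : ℕ → L2 Idx) (p : WithLp 2 (H × L2 Idx)) : L2 Idx :=
  gam J (emb e ‖p‖ G) p

theorem step_est_aux {D : ℝ} (hD : 0 ≤ D) {G G' : ℕ → L2 Idx} (hG : ∀ m, ‖G m - G' m‖ ≤ D)
    {p q : WithLp 2 (H × L2 Idx)} (h : ‖p‖ ≤ ‖q‖) :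
    ‖gam J (emb e ‖p‖ G) p - gam J (emb e ‖q‖ G') p‖ ≤ 16 / 10000 * (‖p - q‖ + D) := by
  refine (norm_gam_sub_le J (emb_le e _ _) (emb_le e _ _) p).trans ?_
  have h1 : ‖emb e ‖p‖ G - emb e ‖q‖ G'‖ ≤ ‖omega e ‖p‖ G - omega e ‖q‖ G'‖ := by
    rw [emb, emb, ← map_sub]
    exact opNorm_tens_le _
  have h2 := omega_est e (norm_nonneg p) h hD hG
  have h3 := norm_sub_norm_le q p
  rw [norm_sub_rev] at h3
  have h4 := mul_le_mul_of_nonneg_right h1 (norm_nonneg p)
  linarith

theorem step_est {D : ℝ} (hD : 0 ≤ D) {G G' : ℕ → L2 Idx} (hG : ∀ m, ‖G m - G' m‖ ≤ D)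
    (p q : WithLp 2 (H × L2 Idx)) : ∃ r G'', (r = ‖p‖ ∨ r = ‖q‖) ∧
      ‖step e J G p - step e J G' q - gam J (emb e r G'') (p - q)‖ ≤
        16 / 10000 * (‖p - q‖ + D) := by
  rcases le_total ‖p‖ ‖q‖ with h | h
  · refine ⟨‖q‖, G', .inr rfl, ?_⟩
    rw [gam_sub, step, step, sub_sub_sub_cancel_right]
    exact step_est_aux e J hD hG h
  · refine ⟨‖p‖, G, .inl rfl, ?_⟩
    rw [gam_sub, step, step, sub_sub_sub_cancel_left, norm_sub_rev, norm_sub_rev p]
    exact step_est_aux e J hD (fun m => by rw [norm_sub_rev]; exact hG m) h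

/-- the history -/
noncomputable def hist (v : ℕ → WithLp 2 (H × L2 Idx)) : ℕ → ℕ → L2 Idx
  | 0 => 0
  | n + 1 => Function.update (hist v n) n (step e J (hist v n) (v n))

/-- the displacement at coordinate `n` -/
noncomputable def Gam (v : ℕ → WithLp 2 (H × L2 Idx)) (n : ℕ) : L2 Idx :=
  step e J (hist e J v n) (v n)

theorem hist_apply (v : ℕ → WithLp 2 (H × L2 Idx)) (n m : ℕ) :
    hist e J v n m = if m < n then Gam e J v m else 0 := by
  induction n with
  | zero => simp [hist]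
  | succ n ih =>
    rw [hist, Function.update_apply]
    by_cases h : m = n
    · subst h
      simp [Gam]
    · rw [if_neg h, ih]
      congr 1
      exact propext (by omega)

theorem norm_Gam_le (v : ℕ → WithLp 2 (H × L2 Idx)) (n : ℕ) : ‖Gam e J v n‖ ≤ 2 * ‖v n‖ :=
  norm_gam_le J (emb_le e _ _) _

theorem Gam_lip {u v : ℕ → WithLp 2 (H × L2 Idx)} {d : ℝ} (h : ∀ n, ‖u n - v n‖ ≤ d) (n : ℕ) :
    ‖Gam e J u n - Gam e J v n‖ ≤ 3 * d := by
  have hd : 0 ≤ d := (norm_nonneg _).trans (h 0)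
  induction n using Nat.strong_induction_on with
  | _ n ih =>
    have hG : ∀ m, ‖hist e J u n m - hist e J v n m‖ ≤ 3 * d := by
      intro m
      rw [hist_apply, hist_apply]
      split_ifs with hm
      · exact ih m hm
      · simp [hd]
    obtain ⟨r, G, -, h1⟩ := step_est e J (by positivity) hG (u n) (v n)
    have h2 := norm_gam_le J (emb_le e r G) (u n - v n)
    have h3 := norm_sub_norm_le (Gam e J u n - Gam e J v n) (gam J (emb e r G) (u n - v n))
    have h4 := h n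
    unfold Gam at h3 ⊢
    linarith

theorem rot_est {u v : ℕ → WithLp 2 (H × L2 Idx)} {d : ℝ} (h : ∀ n, ‖u n - v n‖ ≤ d) (n : ℕ)
    (hu : ‖u n‖ ≤ 1) (hv : ‖v n‖ ≤ 1) :
    |‖((u n).snd + Gam e J u n) - ((v n).snd + Gam e J v n)‖ - ‖u n - v n‖| ≤ 64 / 10000 * d := by
  have hd : 0 ≤ d := (norm_nonneg _).trans (h 0)
  have hG : ∀ m, ‖hist e J u n m - hist e J v n m‖ ≤ 3 * d := by
    intro m
    rw [hist_apply, hist_apply]
    split_ifs with hm
    · exact Gam_lip e J h m
    · simp [hd]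
  obtain ⟨r, G, hr, h1⟩ := step_est e J (by positivity) hG (u n) (v n)
  have hr0 : 0 ≤ r := by rcases hr with rfl | rfl <;> exact norm_nonneg _
  have hr1 : r ≤ 1 := by rcases hr with rfl | rfl <;> assumption
  rw [← norm_rot J (emb_iso e hr0 hr1 G) (u n - v n)]
  refine (abs_norm_sub_norm_le _ _).trans ?_
  have e1 : (u n).snd + Gam e J u n - ((v n).snd + Gam e J v n) -
      ((u n - v n).snd + gam J (emb e r G) (u n - v n)) =
      step e J (hist e J u n) (u n) - step e J (hist e J v n) (v n) -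
        gam J (emb e r G) (u n - v n) := by
    rw [sub_snd, Gam, Gam]
    abel
  rw [e1]
  have := h n
  linarith

theorem norm_rot_Gam {v : ℕ → WithLp 2 (H × L2 Idx)} {n : ℕ} (hv : ‖v n‖ ≤ 1) :
    ‖(v n).snd + Gam e J v n‖ = ‖v n‖ :=
  norm_rot J (emb_iso e (norm_nonneg _) hv _) _

theorem Gam_surj (y : ℕ → L2 Idx) (hy : ∀ n, ‖y n‖ ≤ 1) :
    ∃ v : ℕ → WithLp 2 (H × L2 Idx), ∀ n, ‖v n‖ = ‖y n‖ ∧ (v n).snd + Gam e J v n = y n := by
  have h1 : ∀ (n : ℕ) (G : ℕ → L2 Idx), ∃ p : WithLp 2 (H × L2 Idx),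
      ‖p‖ = ‖y n‖ ∧ p.snd + step e J G p = y n := by
    intro n G
    obtain ⟨p, hp⟩ := rot_surj J (emb_iso e (norm_nonneg _) (hy n) G) (y n)
    have h2 : ‖p‖ = ‖y n‖ := by
      rw [← norm_rot J (emb_iso e (norm_nonneg _) (hy n) G) p, hp]
    exact ⟨p, h2, by rw [step, h2, hp]⟩
  choose p hp using h1
  let G : ℕ → ℕ → L2 Idx := fun n =>
    Nat.rec 0 (fun n G => Function.update G n (step e J G (p n G))) n
  have h2 : ∀ n, hist e J (fun n => p n (G n)) n = G n := by
    intro n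
    induction n with
    | zero => rfl
    | succ n ih =>
      rw [hist, ih]
  refine ⟨fun n => p n (G n), fun n => ⟨(hp n _).1, ?_⟩⟩
  rw [Gam, h2]
  exact (hp n _).2

theorem Gam_ne_zero {v : ℕ → WithLp 2 (H × L2 Idx)} {n : ℕ} {l : Idx} (h : Gam e J v n l ≠ 0) :
    0 < ‖v n‖ ∧ β (sc l) (Tf ‖v n‖) ≠ 0 ∧
      ∀ t : Fin l.1.1, β (l.1.2 t) (hist e J v n (e t).1 (e t).2 / sk l.1.1) ≠ 0 := by
  refine ⟨norm_pos_iff.2 fun h0 => h ?_, ?_⟩
  · rw [Gam, step, h0, gam_zero]
    rfl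
  · rw [Gam, step, gam, emb, tens_apply] at h
    have h1 := left_ne_zero_of_mul h
    rw [omega, om_apply] at h1
    have h2 := wc_ne_zero h1
    rw [sc]
    exact h2

/-- tails of a null sequence -/
noncomputable def tail {E : Type*} [NormedAddCommGroup E] (N : ℕ) (v : C₀(ℕ, E)) : ℝ :=
  ⨆ m, ‖v (N + m)‖

theorem le_tail {E : Type*} [NormedAddCommGroup E] {N n : ℕ} (h : N ≤ n) (v : C₀(ℕ, E)) :
    ‖v n‖ ≤ tail N v := by
  obtain ⟨m, rfl⟩ := Nat.exists_eq_add_of_le h
  exact le_ciSup (f := fun m => ‖v (N + m)‖)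
    ⟨‖v‖, by rintro _ ⟨m, rfl⟩; exact C0.apply_le v _⟩ m

theorem tail_le {E : Type*} [NormedAddCommGroup E] {N : ℕ} {v : C₀(ℕ, E)} {a : ℝ}
    (h : ∀ n, N ≤ n → ‖v n‖ ≤ a) : tail N v ≤ a :=
  ciSup_le fun m => h _ (Nat.le_add_right N m)

theorem tail_sub_le {E : Type*} [NormedAddCommGroup E] (N : ℕ) (u v : C₀(ℕ, E)) :
    tail N u ≤ tail N v + ‖u - v‖ := tail_le fun n hn => by
  have := norm_sub_norm_le (u n) (v n)
  have := C0.sub_le u v n
  have := le_tail hn v
  linarith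

/-- the raw coordinates satisfy the hypotheses of the functional-analytic part -/
noncomputable def setup (he : Function.Surjective e) : Setup C₀(ℕ, WithLp 2 (H × L2 Idx)) where
  R := fun n l v => Gam e J v n l
  Y := fun n t v => hist e J v n (e t).1 (e t).2
  τ := tail
  s := sk
  e := e
  lo := fun k => exp (-10000 * (k + 1))
  M := 2 * exp 10000
  M_pos := by positivity
  τ_lip := fun N u v => by
    have h1 := tail_sub_le N u v
    have h2 := tail_sub_le N v u
    rw [norm_sub_rev] at h2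
    exact abs_le.2 ⟨by linarith, by linarith⟩
  τ_anti := fun v N N' h => tail_le fun n hn => le_tail (h.trans hn) v
  τ_lim := fun v => by
    refine tendsto_order.2 ⟨fun a ha => Eventually.of_forall fun N =>
      ha.trans_le ((norm_nonneg _).trans (le_tail le_rfl v)), fun a ha => ?_⟩
    obtain ⟨N₀, hN⟩ := eventually_atTop.1 ((C0.tendsto v).eventually (ge_mem_nhds (half_pos ha)))
    filter_upwards [eventually_ge_atTop N₀] with N hN'
    exact (tail_le fun n hn => hN n (hN'.trans hn)).trans_lt (half_lt_self ha)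
  s_pos := sk_pos
  s_sum := sk_summable
  e_surj := he
  lo_pos := fun k => exp_pos _
  R_zero := fun n l => by
    by_contra h
    simpa using (Gam_ne_zero e J h).1
  R_lip := fun n S u v => (L2.sum_sq_le (Gam e J u n - Gam e J v n) S).trans
    (pow_le_pow_left₀ (norm_nonneg _) (Gam_lip e J (C0.sub_le u v) n) 2)
  R_bd := fun n S v => by
    by_cases h : ∃ l, Gam e J v n l ≠ 0
    · obtain ⟨l, hl⟩ := h
      obtain ⟨h1, h2, -⟩ := Gam_ne_zero e J hl
      have h3 := (lt_of_β h1 h2).2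
      have h4 : exp (-10000) ^ sc l ≤ 1 :=
        pow_le_one₀ (exp_pos _).le (exp_le_one_iff.2 (by norm_num))
      have h5 := mul_le_of_le_one_right (exp_pos 10000).le h4
      have h6 := norm_Gam_le e J v n
      exact (L2.sum_sq_le _ S).trans (pow_le_pow_left₀ (norm_nonneg _) (by linarith) 2)
    · push Not at h
      simp only [h]
      simp
      positivity
  R_lo := fun n l v h => by
    obtain ⟨h1, h2, -⟩ := Gam_ne_zero e J h
    exact (lt_of_β h1 h2).1.trans_le (le_tail le_rfl v)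
  R_sc := fun n v => ⟨⌊Tf ‖v n‖⌋.toNat, fun l h => by
    have := β_mem (Gam_ne_zero e J h).2.1
    omega⟩
  R_cell := fun n l v h t => β_ne_zero ((Gam_ne_zero e J h).2.2 t)
  Y_eq := fun n t v h => by rw [hist_apply, if_pos h]

end Crest.Agent.R91
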