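import Crest.Agent.R91.Cross

/-!
# Row 91: an `ℓ²`-partition of unity and the unit vectors `ω`
-/

set_option autoImplicit false

namespace Crest.Agent.R91

open Finset Real

/-- `ℓ²`-partition of unity on the line -/
noncomputable def β (c : ℤ) (t : ℝ) : ℝ := cos (π / 2 * max (-1) (min 1 (t - c)))

theorem β_nonneg (c : ℤ) (t : ℝ) : 0 ≤ β c t := by
  have h1 : -1 ≤ max (-1) (min 1 (t - c)) := le_max_left _ _
  have h2 : max (-1) (min 1 (t - c)) ≤ 1 := max_le (by norm_num) (min_le_left _ _)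
  have := pi_pos
  exact cos_nonneg_of_neg_pi_div_two_le_of_le (by nlinarith) (by nlinarith)

theorem β_ne_zero {c : ℤ} {t : ℝ} (h : β c t ≠ 0) : |t - c| < 1 := by
  by_contra h'
  apply h
  rcases le_abs.1 (not_lt.1 h') with h1 | h1
  · rw [β, min_eq_left h1, max_eq_right (by norm_num), mul_one, cos_pi_div_two]
  · rw [β, max_eq_left ((min_le_right _ _).trans (by linarith)), mul_neg, mul_one, cos_neg,
      cos_pi_div_two]

theorem β_lip (c : ℤ) (t t' : ℝ) : |β c t - β c t'| ≤ 2 * |t - t'| := by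
  refine (abs_cos_sub_cos_le _ _).trans ?_
  rw [← mul_sub, abs_mul, abs_of_pos (by positivity : 0 < π / 2)]
  refine mul_le_mul (by linarith [pi_le_four]) ?_ (abs_nonneg _) (by norm_num)
  refine (abs_max_sub_max_le_max _ _ _ _).trans (max_le (by simp) ?_)
  refine (abs_min_sub_min_le_max _ _ _ _).trans (max_le (by simp) ?_)
  rw [sub_sub_sub_cancel_right]

theorem β_mem {c : ℤ} {t : ℝ} (h : β c t ≠ 0) : c = ⌊t⌋ ∨ c = ⌊t⌋ + 1 := by
  have h1 := abs_lt.1 (β_ne_zero h)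
  have h2 := Int.floor_le t
  have h3 := Int.lt_floor_add_one t
  have h4 : (⌊t⌋ : ℝ) - 1 < c := by linarith [h1.2]
  have h5 : (c : ℝ) < ⌊t⌋ + 2 := by linarith [h1.1]
  have h6 : ⌊t⌋ - 1 < c := by exact_mod_cast h4
  have h7 : c < ⌊t⌋ + 2 := by exact_mod_cast h5
  omega

theorem β_sq_add (t : ℝ) : β ⌊t⌋ t ^ 2 + β (⌊t⌋ + 1) t ^ 2 = 1 := by
  have h2 := Int.floor_le t
  have h3 := Int.lt_floor_add_one t
  unfold β
  push_cast
  rw [min_eq_right (by linarith), max_eq_right (by linarith), min_eq_right (by linarith),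
    max_eq_right (by linarith),
    show π / 2 * (t - (⌊t⌋ + 1)) = π / 2 * (t - ⌊t⌋) - π / 2 by ring, cos_sub_pi_div_two,
    cos_sq_add_sin_sq]

theorem β_sum_eq {A : Finset ℤ} {t : ℝ} (h1 : ⌊t⌋ ∈ A) (h2 : ⌊t⌋ + 1 ∈ A) :
    ∑ c ∈ A, β c t ^ 2 = 1 := by
  rw [← β_sq_add t, ← sum_pair (f := fun c => β c t ^ 2) (by omega)]
  symm
  refine sum_subset (by simp [insert_subset_iff, h1, h2]) fun c _ hc => ?_
  have : β c t = 0 := by
    by_contra h0
    exact hc (by simpa using β_mem h0)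
  simp [this]

theorem β_sum_le (A : Finset ℤ) (t : ℝ) : ∑ c ∈ A, β c t ^ 2 ≤ 1 := by
  rw [← β_sum_eq (A := A ∪ {⌊t⌋, ⌊t⌋ + 1}) (t := t) (by simp) (by simp)]
  exact sum_le_sum_of_subset_of_nonneg subset_union_left fun _ _ _ => sq_nonneg _

theorem β_sum_sub (A : Finset ℤ) (t t' : ℝ) :
    ∑ c ∈ A, (β c t - β c t') ^ 2 ≤ 16 * (t - t') ^ 2 := by
  set K : Finset ℤ := {⌊t⌋, ⌊t⌋ + 1, ⌊t'⌋, ⌊t'⌋ + 1} with hK
  have h1 : ∑ c ∈ A, (β c t - β c t') ^ 2 = ∑ c ∈ A with c ∈ K, (β c t - β c t') ^ 2 := by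
    symm
    refine sum_filter_of_ne fun c _ hne => ?_
    by_contra hc
    apply hne
    have hu : β c t = 0 := by
      by_contra h0
      rcases β_mem h0 with h | h <;> simp [hK, h] at hc
    have hv : β c t' = 0 := by
      by_contra h0
      rcases β_mem h0 with h | h <;> simp [hK, h] at hc
    simp [hu, hv]
  rw [h1]
  calc _ ≤ ∑ c ∈ K, (β c t - β c t') ^ 2 :=
        sum_le_sum_of_subset_of_nonneg (fun c hc => (mem_filter.1 hc).2) fun _ _ _ => sq_nonneg _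
    _ ≤ ∑ _c ∈ K, 4 * (t - t') ^ 2 := sum_le_sum fun c _ => by
        have := pow_le_pow_left₀ (abs_nonneg _) (β_lip c t t') 2
        rw [sq_abs, mul_pow, sq_abs] at this
        linarith
    _ ≤ _ := by
        rw [sum_const, nsmul_eq_mul]
        have : (K.card : ℝ) ≤ 4 := by exact_mod_cast card_le_four
        have := sq_nonneg (t - t')
        nlinarith

theorem sum_range_cast (M : ℕ) (f : ℤ → ℝ) :
    ∑ k ∈ range M, f k = ∑ c ∈ (range M).image (Nat.cast : ℕ → ℤ), f c :=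
  (sum_image fun _ _ _ _ h => Nat.cast_injective h).symm

theorem one_sub_prod_le {ι : Type*} (s : Finset ι) (p : ι → ℝ) (h0 : ∀ i, 0 ≤ p i)
    (h1 : ∀ i, p i ≤ 1) : 1 - ∏ i ∈ s, p i ≤ ∑ i ∈ s, (1 - p i) := by
  classical
  induction s using Finset.induction_on with
  | empty => simp
  | insert a s ha ih =>
    rw [prod_insert ha, sum_insert ha]
    have : ∏ i ∈ s, p i ≤ 1 := prod_le_one (fun i _ => h0 i) fun i _ => h1 i
    have := h1 a
    nlinarith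

/-- the coefficients of `ω` -/
noncomputable def wc (T : ℝ) (x : ℕ → ℕ → ℝ) (γ : Cell) : ℝ :=
  β γ.1 T * ∏ t : Fin γ.1, β (γ.2 t) (x γ.1 t)

/-- a finite box of cells -/
def Box (M : ℕ) (A : Finset ℤ) : Finset Cell :=
  (range M).sigma fun k => Fintype.piFinset fun _ : Fin k => A

/-- the box is large enough -/
def Good (M : ℕ) (A : Finset ℤ) (T : ℝ) (x : ℕ → ℕ → ℝ) : Prop :=
  T + 1 < M ∧ ∀ k < M, ∀ t < M, ⌊x k t⌋ ∈ A ∧ ⌊x k t⌋ + 1 ∈ A

theorem exists_good (T T' : ℝ) (x x' : ℕ → ℕ → ℝ) : ∃ M A, Good M A T x ∧ Good M A T' x' := by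
  obtain ⟨M, hM⟩ := exists_nat_gt (max T T' + 1)
  refine ⟨M, (range M ×ˢ range M).biUnion fun p =>
    {⌊x p.1 p.2⌋, ⌊x p.1 p.2⌋ + 1, ⌊x' p.1 p.2⌋, ⌊x' p.1 p.2⌋ + 1},
    ⟨by linarith [le_max_left T T'], fun k hk t ht => ⟨?_, ?_⟩⟩,
    ⟨by linarith [le_max_right T T'], fun k hk t ht => ⟨?_, ?_⟩⟩⟩
  all_goals exact mem_biUnion.2 ⟨(k, t), by simp [hk, ht], by simp⟩

theorem wc_ne_zero {T : ℝ} {x : ℕ → ℕ → ℝ} {γ : Cell} (h : wc T x γ ≠ 0) :
    β γ.1 T ≠ 0 ∧ ∀ t : Fin γ.1, β (γ.2 t) (x γ.1 t) ≠ 0 :=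
  ⟨left_ne_zero_of_mul h, fun t => prod_ne_zero_iff.1 (right_ne_zero_of_mul h) t (mem_univ t)⟩

theorem wc_mem_box {M : ℕ} {A : Finset ℤ} {T : ℝ} {x : ℕ → ℕ → ℝ} (h : Good M A T x) {γ : Cell}
    (hγ : wc T x γ ≠ 0) : γ ∈ Box M A := by
  obtain ⟨h1, h2⟩ := wc_ne_zero hγ
  have h3 : γ.1 < M := by
    have := (abs_lt.1 (β_ne_zero h1)).1
    have h4 : (γ.1 : ℝ) < M := by
      push_cast at this
      linarith [h.1]
    exact_mod_cast h4
  refine mem_sigma.2 ⟨mem_range.2 h3, Fintype.mem_piFinset.2 fun t => ?_⟩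
  have := h.2 γ.1 h3 t (t.2.trans h3)
  rcases β_mem (h2 t) with h | h <;> rw [h]
  exacts [this.1, this.2]

/-- the vector `ω` -/
noncomputable def om (T : ℝ) (x : ℕ → ℕ → ℝ) : lp (fun _ : Cell => ℝ) 2 :=
  ⟨wc T x, by
    obtain ⟨M, A, h, -⟩ := exists_good T T x x
    exact (memℓp_zero ((Box M A).finite_toSet.subset fun γ hγ => wc_mem_box h hγ)).of_exponent_ge
      (by simp)⟩

theorem om_apply (T : ℝ) (x : ℕ → ℕ → ℝ) (γ : Cell) : om T x γ = wc T x γ := rfl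

theorem inner_om {M : ℕ} {A : Finset ℤ} {T T' : ℝ} {x x' : ℕ → ℕ → ℝ} (h : Good M A T x) :
    inner ℝ (om T x) (om T' x') = ∑ k ∈ range M, β k T * β k T' *
      ∏ t : Fin k, ∑ c ∈ A, β c (x k t) * β c (x' k t) := by
  rw [lp.inner_eq_tsum, tsum_eq_sum (s := Box M A)]
  · rw [Box, sum_sigma]
    refine sum_congr rfl fun k _ => ?_
    rw [prod_univ_sum, mul_sum]
    refine sum_congr rfl fun c _ => ?_
    simp only [om_apply, wc, RCLike.inner_apply, conj_trivial, prod_mul_distrib]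
    ring
  · intro γ hγ
    have : wc T x γ = 0 := by
      by_contra h0
      exact hγ (wc_mem_box h h0)
    simp [om_apply, this]

theorem norm_om_sq {M : ℕ} {A : Finset ℤ} {T : ℝ} {x : ℕ → ℕ → ℝ} (h : Good M A T x) :
    ‖om T x‖ ^ 2 = ∑ k ∈ range M, β k T ^ 2 := by
  rw [← real_inner_self_eq_norm_sq, inner_om h]
  refine sum_congr rfl fun k hk => ?_
  rw [prod_eq_one, mul_one, sq]
  intro t _
  have := h.2 k (mem_range.1 hk) t (t.2.trans (mem_range.1 hk))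
  simp only [← sq]
  exact β_sum_eq this.1 this.2

theorem norm_om_le (T : ℝ) (x : ℕ → ℕ → ℝ) : ‖om T x‖ ≤ 1 := by
  obtain ⟨M, A, h, -⟩ := exists_good T T x x
  have h1 := norm_om_sq h
  rw [sum_range_cast M fun c => β c T ^ 2] at h1
  have := β_sum_le ((range M).image (Nat.cast : ℕ → ℤ)) T
  exact (abs_le_of_sq_le_sq' (by linarith) zero_le_one).2

theorem norm_om_eq {T : ℝ} (hT : 0 ≤ T) (x : ℕ → ℕ → ℝ) : ‖om T x‖ = 1 := by
  obtain ⟨M, A, h, -⟩ := exists_good T T x x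
  have h1 := norm_om_sq h
  have h2 : 0 ≤ ⌊T⌋ := Int.floor_nonneg.2 hT
  have h3 : ⌊T⌋ + 1 < M := by
    have : (⌊T⌋ : ℝ) + 1 < M := by linarith [Int.floor_le T, h.1]
    exact_mod_cast this
  rw [sum_range_cast M fun c => β c T ^ 2, β_sum_eq] at h1
  · exact (pow_eq_one_iff_of_nonneg (norm_nonneg _) two_ne_zero).1 h1
  · exact mem_image.2 ⟨⌊T⌋.toNat, mem_range.2 (by omega), by omega⟩
  · exact mem_image.2 ⟨⌊T⌋.toNat + 1, mem_range.2 (by omega), by omega⟩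

theorem norm_om_sub_sq {T T' D : ℝ} {x x' : ℕ → ℕ → ℝ}
    (hD : ∀ k : ℕ, β k T ≠ 0 → β k T' ≠ 0 → ∑ t : Fin k, (x k t - x' k t) ^ 2 ≤ D ^ 2) :
    ‖om T x - om T' x'‖ ^ 2 ≤ 16 * (T - T') ^ 2 + 16 * D ^ 2 := by
  obtain ⟨M, A, h, h'⟩ := exists_good T T' x x'
  rw [norm_sub_sq_real, norm_om_sq h, norm_om_sq h', inner_om h]
  have h1 : ∀ k ∈ range M, β k T * β k T' * (1 - 8 * D ^ 2) ≤ β k T * β k T' *
      ∏ t : Fin k, ∑ c ∈ A, β c (x k t) * β c (x' k t) := by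
    intro k hk
    by_cases h0 : β k T * β k T' = 0
    · simp [h0]
    refine mul_le_mul_of_nonneg_left ?_ (mul_nonneg (β_nonneg _ _) (β_nonneg _ _))
    have h2 := hD k (left_ne_zero_of_mul h0) (right_ne_zero_of_mul h0)
    have h3 : ∀ t : Fin k, 1 - ∑ c ∈ A, β c (x k t) * β c (x' k t) =
        (∑ c ∈ A, (β c (x k t) - β c (x' k t)) ^ 2) / 2 := by
      intro t
      have h4 := h.2 k (mem_range.1 hk) t (t.2.trans (mem_range.1 hk))
      have h5 := h'.2 k (mem_range.1 hk) t (t.2.trans (mem_range.1 hk))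
      simp only [sub_sq, sum_add_distrib, sum_sub_distrib, β_sum_eq h4.1 h4.2,
        β_sum_eq h5.1 h5.2, mul_assoc, ← mul_sum]
      ring
    have h4 := one_sub_prod_le univ (fun t : Fin k => ∑ c ∈ A, β c (x k t) * β c (x' k t))
      (fun t => sum_nonneg fun c _ => mul_nonneg (β_nonneg _ _) (β_nonneg _ _)) fun t => by
        have := h3 t
        have : 0 ≤ ∑ c ∈ A, (β c (x k t) - β c (x' k t)) ^ 2 := sum_nonneg fun _ _ => sq_nonneg _
        linarith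
    have h5 : ∑ t : Fin k, (1 - ∑ c ∈ A, β c (x k t) * β c (x' k t)) ≤
        ∑ t : Fin k, 8 * (x k t - x' k t) ^ 2 := sum_le_sum fun t _ => by
      rw [h3]
      linarith [β_sum_sub A (x k t) (x' k t)]
    rw [← mul_sum] at h5
    linarith
  have h2 := sum_le_sum h1
  rw [← sum_mul] at h2
  have h3 := β_sum_sub ((range M).image (Nat.cast : ℕ → ℤ)) T T'
  have h4 := β_sum_le ((range M).image (Nat.cast : ℕ → ℤ)) T
  have h5 := β_sum_le ((range M).image (Nat.cast : ℕ → ℤ)) T'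
  rw [← sum_range_cast M fun c => (β c T - β c T') ^ 2] at h3
  rw [← sum_range_cast M fun c => β c T ^ 2] at h4
  rw [← sum_range_cast M fun c => β c T' ^ 2] at h5
  have h6 : 0 ≤ ∑ k ∈ range M, (β k T - β k T') ^ 2 := sum_nonneg fun _ _ => sq_nonneg _
  simp only [sub_sq, sum_add_distrib, sum_sub_distrib, mul_assoc, ← mul_sum] at h3 h6
  rw [sub_sq]
  have := sq_nonneg D
  nlinarith

end Crest.Agent.R91
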