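import Crest.Agent.R91.Basic

/-!
# Row 91: basic functionals and the Riesz-product lemma
-/

set_option autoImplicit false

namespace Crest.Agent.R91

open Finset Filter MeasureTheory

variable {V L : Type*}

theorem intInt {ξ : ℝ → ℝ} {t : ℝ} (hm : Measurable ξ) (hb : ∀ x, |ξ x| ≤ t) (a b : ℝ) :
    IntervalIntegrable ξ volume a b :=
  (intervalIntegrable_const (c := t)).mono_fun' hm.aestronglyMeasurable
    (Eventually.of_forall fun x => hb x)

/-- a finite sum of primitives composed with raw coordinates -/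
noncomputable def fn (r : L → V → ℝ) (S : Finset L) (ξ : L → ℝ → ℝ) : V → ℝ :=
  fun v => ∑ l ∈ S, ∫ x in (0 : ℝ)..r l v, ξ l x

/-- admissible data: per-scale `ℓ²` budget -/
structure Adm (sc : L → ℕ) (S : Finset L) (ξ : L → ℝ → ℝ) (t : L → ℝ) : Prop where
  meas : ∀ l, Measurable (ξ l)
  le : ∀ l x, |ξ l x| ≤ t l
  budget : ∀ k, ∑ l ∈ S with sc l = k, t l ^ 2 ≤ 1

theorem Adm.nonneg {sc : L → ℕ} {S : Finset L} {ξ : L → ℝ → ℝ} {t : L → ℝ} (h : Adm sc S ξ t)
    (l : L) : 0 ≤ t l := (abs_nonneg _).trans (h.le l 0)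

theorem Adm.subset {sc : L → ℕ} {S S' : Finset L} {ξ : L → ℝ → ℝ} {t : L → ℝ} (h : Adm sc S ξ t)
    (hS : S' ⊆ S) : Adm sc S' ξ t :=
  ⟨h.meas, h.le, fun k => (sum_le_sum_of_subset_of_nonneg (filter_subset_filter _ hS)
    fun _ _ _ => sq_nonneg _).trans (h.budget k)⟩

/-- the basic class -/
def Bas (sc : L → ℕ) (𝒦 : Set ℕ) (r : L → V → ℝ) : Set (V → ℝ) :=
  {f | ∃ S ξ t, Adm sc S ξ t ∧ (∀ l ∈ S, sc l ∈ 𝒦) ∧ f = fn r S ξ}

theorem Adm.extend {sc : L → ℕ} {S S' : Finset L} {ξ : L → ℝ → ℝ} {t : L → ℝ} (h : Adm sc S ξ t)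
    (hS : S ⊆ S') (r : L → V → ℝ) : ∃ ξ' t', Adm sc S' ξ' t' ∧ fn r S ξ = fn r S' ξ' := by
  classical
  refine ⟨fun l => if l ∈ S then ξ l else 0, fun l => if l ∈ S then t l else 0,
    ⟨fun l => ?_, fun l x => ?_, fun k => ?_⟩, ?_⟩
  · split_ifs
    · exact h.meas l
    · exact measurable_zero
  · split_ifs
    · exact h.le l x
    · simp
  · refine le_trans (le_of_eq ?_) (h.budget k)
    symm
    refine (sum_congr rfl fun l hl => ?_).trans (sum_subset (filter_subset_filter _ hS) ?_)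
    · simp [(mem_filter.1 hl).1]
    · intro l hl hl'
      have : l ∉ S := fun h' => hl' (mem_filter.2 ⟨h', (mem_filter.1 hl).2⟩)
      simp [this]
  · ext v
    unfold fn
    refine (sum_congr rfl fun l hl => ?_).trans (sum_subset hS ?_)
    · simp [hl]
    · intro l _ hl'
      simp [hl']

theorem norm_riesz_prod_le {ι : Type*} [Fintype ι] (w : ι → ℝ) (hw : ∑ a, w a ^ 2 ≤ 1) :
    ‖∏ a, (1 + Complex.I * (w a : ℂ))‖ ≤ 2 := by
  have h1 : ‖∏ a, (1 + Complex.I * (w a : ℂ))‖ ^ 2 = ∏ a, (1 + w a ^ 2) := by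
    rw [norm_prod, ← prod_pow]
    refine prod_congr rfl fun a _ => ?_
    rw [← Complex.normSq_eq_norm_sq, Complex.normSq_apply]
    simp
    ring
  have h2 : ∏ a, (1 + w a ^ 2) ≤ Real.exp (∑ a, w a ^ 2) := by
    rw [Real.exp_sum]
    exact prod_le_prod (fun a _ => by positivity) fun a _ => by
      linarith [Real.add_one_le_exp (w a ^ 2)]
  have h3 : Real.exp (∑ a, w a ^ 2) ≤ 4 :=
    (Real.exp_le_exp.2 hw).trans (by linarith [Real.exp_one_lt_d9])
  exact abs_le_of_sq_le_sq' (by linarith) (by norm_num) |>.2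

theorem riesz_avg {ι : Type*} [Fintype ι] [DecidableEq ι] (w : ι → ℝ) (b : ι) :
    ∑ ε ∈ Fintype.piFinset (fun _ : ι => ({1, -1} : Finset ℝ)),
      ε b * (∏ a, (1 + Complex.I * ((ε a * w a : ℝ) : ℂ))).im = 2 ^ Fintype.card ι * w b := by
  have h1 : ∑ ε ∈ Fintype.piFinset (fun _ : ι => ({1, -1} : Finset ℝ)),
      (ε b : ℂ) * ∏ a, (1 + Complex.I * ((ε a * w a : ℝ) : ℂ)) =
      ∏ a, ∑ η ∈ ({1, -1} : Finset ℝ),
        (if a = b then (η : ℂ) else 1) * (1 + Complex.I * ((η * w a : ℝ) : ℂ)) := by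
    rw [prod_univ_sum]
    refine sum_congr rfl fun ε _ => ?_
    rw [prod_mul_distrib, prod_ite_eq']
    simp
  have h2 : ∀ a, ∑ η ∈ ({1, -1} : Finset ℝ),
      (if a = b then (η : ℂ) else 1) * (1 + Complex.I * ((η * w a : ℝ) : ℂ)) =
      2 * if a = b then Complex.I * w a else 1 := by
    intro a
    rw [sum_pair (by norm_num)]
    split_ifs
    · push_cast
      ring
    · push_cast
      ring
  simp only [h2, prod_mul_distrib, prod_const, card_univ, prod_ite_eq', mem_univ, if_true] at h1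
  have h3 := congrArg Complex.im h1
  rw [Complex.im_sum] at h3
  simp only [Complex.im_ofReal_mul] at h3
  rw [h3]
  rw [show (2 : ℂ) ^ Fintype.card ι = ((2 ^ Fintype.card ι : ℝ) : ℂ) by push_cast; rfl,
    Complex.im_ofReal_mul]
  simp

theorem riesz_core {ι : Type*} [Fintype ι] [DecidableEq ι] [Nonempty ι] {sc : L → ℕ}
    {S : Finset L} {ξ : ι → L → ℝ → ℝ} {t : ι → L → ℝ} (h : ∀ a, Adm sc S (ξ a) (t a)) :
    ∃ (ζ : (ι → ℝ) → L → ℝ → ℝ) (t' : L → ℝ),
      (∀ ε ∈ Fintype.piFinset (fun _ : ι => ({1, -1} : Finset ℝ)), Adm sc S (ζ ε) t') ∧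
      ∀ b l x, ∑ ε ∈ Fintype.piFinset (fun _ : ι => ({1, -1} : Finset ℝ)), ε b * ζ ε l x =
        2 ^ Fintype.card ι / (2 * √(Fintype.card ι)) * ξ b l x := by
  have hI : (0 : ℝ) < Fintype.card ι := by exact_mod_cast Fintype.card_pos
  have hsI : 0 < √(Fintype.card ι : ℝ) := Real.sqrt_pos.2 hI
  set u : L → ℝ := fun l => √(∑ a, t a l ^ 2) with hu
  have hu0 : ∀ l, 0 ≤ u l := fun l => Real.sqrt_nonneg _
  have hu2 : ∀ l, u l ^ 2 = ∑ a, t a l ^ 2 := fun l =>
    Real.sq_sqrt (sum_nonneg fun _ _ => sq_nonneg _)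
  have hξ2 : ∀ a l x, ξ a l x ^ 2 ≤ t a l ^ 2 := fun a l x =>
    sq_le_sq.2 (((h a).le l x).trans (le_abs_self _))
  refine ⟨fun ε l x => u l / (2 * √(Fintype.card ι)) *
      (∏ a, (1 + Complex.I * ((ε a * (ξ a l x / u l) : ℝ) : ℂ))).im,
    fun l => u l / √(Fintype.card ι), fun ε hε => ⟨fun l => ?_, fun l x => ?_, fun k => ?_⟩,
    fun b l x => ?_⟩
  · refine Measurable.const_mul (Complex.measurable_im.comp ?_) _
    refine Finset.measurable_prod _ fun a _ => ?_
    have := (h a).meas l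
    fun_prop
  · have hb : ‖∏ a, (1 + Complex.I * ((ε a * (ξ a l x / u l) : ℝ) : ℂ))‖ ≤ 2 := by
      refine norm_riesz_prod_le _ ?_
      have e : ∀ a, (ε a * (ξ a l x / u l)) ^ 2 = ξ a l x ^ 2 / u l ^ 2 := by
        intro a
        have := Fintype.mem_piFinset.1 hε a
        simp only [mem_insert, mem_singleton] at this
        rcases this with h | h <;> rw [h] <;> ring
      simp only [e, ← sum_div]
      refine div_le_one_of_le₀ ?_ (sq_nonneg _)
      rw [hu2]
      exact sum_le_sum fun a _ => hξ2 a l x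
    rw [abs_mul, abs_of_nonneg (by have := hu0 l; positivity)]
    calc _ ≤ u l / (2 * √(Fintype.card ι)) * 2 :=
          mul_le_mul_of_nonneg_left ((Complex.abs_im_le_norm _).trans hb)
            (by have := hu0 l; positivity)
      _ = _ := by field_simp
  · simp only [div_pow, hu2, Real.sq_sqrt hI.le, ← sum_div]
    rw [div_le_one hI, sum_comm]
    calc _ ≤ ∑ _a : ι, (1 : ℝ) := sum_le_sum fun a _ => (h a).budget k
      _ = _ := by simp
  · simp only [mul_left_comm _ (u l / (2 * √(Fintype.card ι))), ← mul_sum]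
    rw [riesz_avg (fun a => ξ a l x / u l) b]
    by_cases h0 : u l = 0
    · have h1 : t b l ^ 2 ≤ u l ^ 2 := by
        rw [hu2]
        exact single_le_sum (f := fun a => t a l ^ 2) (fun _ _ => sq_nonneg _) (mem_univ b)
      have h2 : ξ b l x = 0 := by
        have := hξ2 b l x
        rw [h0] at h1
        exact pow_eq_zero_iff (n := 2) (by norm_num) |>.1
          (le_antisymm (by linarith) (sq_nonneg _))
      simp [h2]
    · field_simp

theorem tame_Bas (sc : L → ℕ) (𝒦 : Set ℕ) (r : L → V → ℝ) (z : ℕ → V →₀ ℝ)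
    (hz : WUC (Bas sc 𝒦 r) z) : Tame (Bas sc 𝒦 r) z := by
  classical
  by_contra hn
  obtain ⟨c, hc, hfr⟩ := not_tame hn
  obtain ⟨W, hW⟩ := hz
  obtain ⟨I, hI⟩ := exists_nat_gt ((W / (2 * c)) ^ 2)
  have hI0 : 0 < I := by
    have : (0 : ℝ) < I := lt_of_le_of_lt (sq_nonneg _) hI
    exact_mod_cast this
  obtain ⟨A, hA, hcard⟩ := (Nat.frequently_atTop_iff_infinite.1 hfr).exists_subset_card_eq I
  have hA' : ∀ a : A, ∃ S ξ t, Adm sc S ξ t ∧ (∀ l ∈ S, sc l ∈ 𝒦) ∧
      4 * c < |pair (fn r S ξ) (z a)| := by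
    intro a
    obtain ⟨_, ⟨S, ξ, t, h1, h2, rfl⟩, h3⟩ := hA a.2
    exact ⟨S, ξ, t, h1, h2, h3⟩
  choose S₀ ξ₀ t₀ h1 h2 h3 using hA'
  set S := univ.biUnion S₀ with hS
  have hSK : ∀ l ∈ S, sc l ∈ 𝒦 := by
    intro l hl
    obtain ⟨a, -, ha⟩ := mem_biUnion.1 hl
    exact h2 a l ha
  choose ξ t h4 h5 using fun a => (h1 a).extend (S' := S) (subset_biUnion_of_mem S₀ (mem_univ a)) r
  simp only [h5] at h3
  have : Nonempty A := (card_pos.1 (hcard ▸ hI0)).to_subtype
  obtain ⟨ζ, t', h6, h7⟩ := riesz_core h4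
  have hcA : Fintype.card A = I := by simpa using hcard
  rw [hcA] at h7
  set E := Fintype.piFinset (fun _ : A => ({1, -1} : Finset ℝ)) with hE
  have hEc : (E.card : ℝ) = 2 ^ I := by
    rw [hE, Fintype.card_piFinset, prod_const, card_pair (by norm_num), card_univ, hcA]
    simp
  have hsI : 0 < √(I : ℝ) := Real.sqrt_pos.2 (by exact_mod_cast hI0)
  have h8 : ∀ b, ∑ ε ∈ E, ε b • fn r S (ζ ε) = (2 ^ I / (2 * √I)) • fn r S (ξ b) := by
    intro b
    ext v
    simp only [Finset.sum_apply, Pi.smul_apply, smul_eq_mul, fn, mul_sum]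
    rw [sum_comm]
    refine sum_congr rfl fun l _ => ?_
    simp only [← intervalIntegral.integral_const_mul]
    rw [← intervalIntegral.integral_finsetSum]
    · simp only [h7]
    · intro ε hε
      exact (intInt ((h6 ε hε).meas l) ((h6 ε hε).le l) _ _).const_mul _
  have h9 : ∀ b : A, 2 ^ I / (2 * √I) * (4 * c) ≤ ∑ ε ∈ E, |pair (fn r S (ζ ε)) (z b)| := by
    intro b
    calc 2 ^ I / (2 * √I) * (4 * c) ≤ |pair ((2 ^ I / (2 * √I)) • fn r S (ξ b)) (z b)| := by
          rw [map_smul, LinearMap.smul_apply, smul_eq_mul, abs_mul, abs_of_pos (by positivity)]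
          exact mul_le_mul_of_nonneg_left (h3 b).le (by positivity)
      _ ≤ _ := by
          rw [← h8, map_sum, LinearMap.sum_apply]
          refine (abs_sum_le_sum_abs _ _).trans (sum_le_sum fun ε hε => ?_)
          rw [map_smul, LinearMap.smul_apply, smul_eq_mul, abs_mul]
          have := Fintype.mem_piFinset.1 hε b
          simp only [mem_insert, mem_singleton] at this
          rcases this with h | h <;> simp [h]
  have h10 : I * (2 ^ I / (2 * √I) * (4 * c)) ≤ 2 ^ I * W := by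
    calc I * (2 ^ I / (2 * √I) * (4 * c)) = ∑ _b : A, 2 ^ I / (2 * √I) * (4 * c) := by
          simp [hcard]
      _ ≤ ∑ b : A, ∑ ε ∈ E, |pair (fn r S (ζ ε)) (z b)| := sum_le_sum fun b _ => h9 b
      _ = ∑ ε ∈ E, ∑ b ∈ A, |pair (fn r S (ζ ε)) (z b)| := by
          rw [sum_comm]
          exact sum_congr rfl fun ε _ => sum_coe_sort A fun b => |pair (fn r S (ζ ε)) (z b)|
      _ ≤ ∑ _ε ∈ E, W := sum_le_sum fun ε hε => hW _ ⟨S, ζ ε, t', h6 ε hε, hSK, rfl⟩ A
      _ = _ := by simp [hEc]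
  have h11 : I * (2 ^ I / (2 * √I) * (4 * c)) = 2 ^ I * (√I * (2 * c)) := by
    have : (I : ℝ) = √I * √I := (Real.mul_self_sqrt (Nat.cast_nonneg I)).symm
    rw [show (I : ℝ) * (2 ^ I / (2 * √I) * (4 * c)) = (√I * √I) * (2 ^ I / (2 * √I) * (4 * c)) by
      rw [← this]]
    field_simp
    ring
  rw [h11] at h10
  have h12 : √I ≤ W / (2 * c) := by
    rw [le_div_iff₀ (by positivity)]
    exact le_of_mul_le_mul_left h10 (by positivity)
  have h13 : (I : ℝ) ≤ (W / (2 * c)) ^ 2 := by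
    rw [← Real.sq_sqrt (Nat.cast_nonneg I)]
    exact pow_le_pow_left₀ hsI.le h12 2
  linarith

end Crest.Agent.R91
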