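import Crest.Agent.R91.Riesz

/-!
# Row 91: the variation pseudo-metric of a sum of primitives
-/

set_option autoImplicit false

namespace Crest.Agent.R91

open Finset Filter MeasureTheory

variable {V L : Type*}

theorem cs_le {ι : Type*} (S : Finset ι) (t x : ι → ℝ) {a b : ℝ} (ha : 0 ≤ a) (hb : 0 ≤ b)
    (h1 : ∑ l ∈ S, t l ^ 2 ≤ a ^ 2) (h2 : ∑ l ∈ S, x l ^ 2 ≤ b ^ 2) :
    ∑ l ∈ S, t l * |x l| ≤ a * b := by
  have h3 := sum_mul_sq_le_sq_mul_sq S t fun l => |x l|
  simp only [sq_abs] at h3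
  have h4 : (∑ l ∈ S, t l ^ 2) * ∑ l ∈ S, x l ^ 2 ≤ a ^ 2 * b ^ 2 :=
    mul_le_mul h1 h2 (sum_nonneg fun _ _ => sq_nonneg _) (sq_nonneg _)
  exact (abs_le_of_sq_le_sq' (by rw [mul_pow]; linarith) (by positivity)).2

/-- the variation of `fn r S ξ` between two points -/
noncomputable def var (r : L → V → ℝ) (S : Finset L) (ξ : L → ℝ → ℝ) (u v : V) : ℝ :=
  ∑ l ∈ S, |∫ x in r l v..r l u, abs (ξ l x)|

theorem var_nonneg (r : L → V → ℝ) (S : Finset L) (ξ : L → ℝ → ℝ) (u v : V) :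
    0 ≤ var r S ξ u v := sum_nonneg fun _ _ => abs_nonneg _

theorem fn_sub_le_var {sc : L → ℕ} {S : Finset L} {ξ : L → ℝ → ℝ} {t : L → ℝ} (h : Adm sc S ξ t)
    (r : L → V → ℝ) (u v : V) : |fn r S ξ u - fn r S ξ v| ≤ var r S ξ u v := by
  unfold fn var
  rw [← sum_sub_distrib]
  refine (abs_sum_le_sum_abs _ _).trans (sum_le_sum fun l _ => ?_)
  rw [intervalIntegral.integral_interval_sub_left (intInt (h.meas l) (h.le l) _ _)
    (intInt (h.meas l) (h.le l) _ _)]
  exact intervalIntegral.norm_integral_le_abs_integral_norm (f := ξ l)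

theorem var_le {sc : L → ℕ} {S : Finset L} {ξ : L → ℝ → ℝ} {t : L → ℝ} (h : Adm sc S ξ t)
    (r : L → V → ℝ) (u v : V) : var r S ξ u v ≤ ∑ l ∈ S, t l * |r l u - r l v| :=
  sum_le_sum fun l _ => intervalIntegral.norm_integral_le_of_norm_le_const
    (f := fun x => |ξ l x|) fun x _ => by simpa using h.le l x

theorem abs_fn_le {sc : L → ℕ} {S : Finset L} {ξ : L → ℝ → ℝ} {t : L → ℝ} (h : Adm sc S ξ t)
    (r : L → V → ℝ) (v : V) : |fn r S ξ v| ≤ ∑ l ∈ S, t l * |r l v| := by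
  refine (abs_sum_le_sum_abs _ _).trans (sum_le_sum fun l _ => ?_)
  have := intervalIntegral.norm_integral_le_of_norm_le_const (a := 0) (b := r l v)
    (f := ξ l) (C := t l) fun x _ => by simpa using h.le l x
  simpa using this

theorem var_subset (r : L → V → ℝ) {S S' : Finset L} (hS : S' ⊆ S) (ξ : L → ℝ → ℝ) (u v : V) :
    var r S' ξ u v ≤ var r S ξ u v :=
  sum_le_sum_of_subset_of_nonneg hS fun _ _ _ => abs_nonneg _

theorem abs_int_mono {f g : ℝ → ℝ} {t : ℝ} (hg : Measurable g) (hb : ∀ x, |g x| ≤ t)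
    (h : ∀ x, |f x| ≤ |g x|) (a b : ℝ) :
    |∫ x in a..b, abs (f x)| ≤ |∫ x in a..b, abs (g x)| := by
  rw [intervalIntegral.abs_integral_eq_abs_integral_uIoc,
    intervalIntegral.abs_integral_eq_abs_integral_uIoc,
    abs_of_nonneg (integral_nonneg fun x => abs_nonneg _),
    abs_of_nonneg (integral_nonneg fun x => abs_nonneg _)]
  exact integral_mono_of_nonneg (Eventually.of_forall fun x => abs_nonneg _)
    (intervalIntegrable_iff.1 (intInt hg hb a b).abs) (Eventually.of_forall h)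

theorem var_mono {sc : L → ℕ} {S : Finset L} {ξ ξ' : L → ℝ → ℝ} {t : L → ℝ} (h : Adm sc S ξ t)
    (h' : ∀ l x, |ξ' l x| ≤ |ξ l x|) (r : L → V → ℝ) (u v : V) :
    var r S ξ' u v ≤ var r S ξ u v :=
  sum_le_sum fun l _ => abs_int_mono (h.meas l) (h.le l) (h' l) _ _

theorem var_triangle {sc : L → ℕ} {S : Finset L} {ξ : L → ℝ → ℝ} {t : L → ℝ} (h : Adm sc S ξ t)
    (r : L → V → ℝ) (u v w : V) : var r S ξ u w ≤ var r S ξ u v + var r S ξ v w := by
  unfold var
  rw [← sum_add_distrib]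
  refine sum_le_sum fun l _ => ?_
  rw [← intervalIntegral.integral_add_adjacent_intervals (b := r l v)
    (intInt (h.meas l) (h.le l) _ _).abs (intInt (h.meas l) (h.le l) _ _).abs, add_comm]
  exact abs_add_le _ _

theorem local_to_global [NormedAddCommGroup V] [NormedSpace ℝ V] {d : V → V → ℝ} {C δ : ℝ}
    (hδ : 0 < δ) (htri : ∀ u v w, d u w ≤ d u v + d v w)
    (hloc : ∀ u v, ‖u - v‖ < δ → d u v ≤ C * ‖u - v‖) (u v : V) : d u v ≤ C * ‖u - v‖ := by
  have key : ∀ n : ℕ, ∀ u v, ‖u - v‖ < 2 ^ n * δ → d u v ≤ C * ‖u - v‖ := by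
    intro n
    induction n with
    | zero => simpa using hloc
    | succ n ih =>
      intro u v huv
      set m := u - (1 / 2 : ℝ) • (u - v) with hm
      have h1 : ‖u - m‖ = ‖u - v‖ / 2 := by
        rw [hm, sub_sub_cancel, norm_smul]
        norm_num
        ring
      have h2 : ‖m - v‖ = ‖u - v‖ / 2 := by
        have : m - v = (1 / 2 : ℝ) • (u - v) := by
          rw [hm]
          module
        rw [this, norm_smul]
        norm_num
        ring
      rw [pow_succ] at huv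
      have h3 := ih u m (by linarith)
      have h4 := ih m v (by linarith)
      have h5 := htri u m v
      rw [h1] at h3
      rw [h2] at h4
      linarith
  obtain ⟨n, hn⟩ := pow_unbounded_of_one_lt (‖u - v‖ / δ) (one_lt_two (α := ℝ))
  exact key n u v (by rwa [div_lt_iff₀ hδ] at hn)

theorem fn_smul (r : L → V → ℝ) (S : Finset L) (ξ : L → ℝ → ℝ) (a : ℝ) :
    fn r S (fun l x => a * ξ l x) = a • fn r S ξ := by
  ext v
  simp [fn, mul_sum]

theorem var_smul (r : L → V → ℝ) (S : Finset L) (ξ : L → ℝ → ℝ) (a : ℝ) (u v : V) :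
    var r S (fun l x => a * ξ l x) u v = |a| * var r S ξ u v := by
  simp [var, mul_sum, abs_mul]

theorem Adm.smul {sc : L → ℕ} {S : Finset L} {ξ : L → ℝ → ℝ} {t : L → ℝ} (h : Adm sc S ξ t)
    {a : ℝ} (ha : |a| ≤ 1) : Adm sc S (fun l x => a * ξ l x) t :=
  ⟨fun l => (h.meas l).const_mul a, fun l x => by
    rw [abs_mul]
    have := h.le l x
    have := abs_nonneg (ξ l x)
    nlinarith, h.budget⟩

theorem abs_indicator_le (J : Set ℝ) (f : ℝ → ℝ) (x : ℝ) : |J.indicator f x| ≤ |f x| := by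
  simpa using norm_indicator_le_norm_self (s := J) f x

theorem Adm.mask {sc : L → ℕ} {S : Finset L} {ξ : L → ℝ → ℝ} {t : L → ℝ} (h : Adm sc S ξ t)
    {J : Set ℝ} (hJ : MeasurableSet J) : Adm sc S (fun l => J.indicator (ξ l)) t :=
  ⟨fun l => (h.meas l).indicator hJ, fun l x => (abs_indicator_le _ _ _).trans (h.le l x),
    h.budget⟩

theorem fn_mask {sc : L → ℕ} {S : Finset L} {ξ : L → ℝ → ℝ} {t : L → ℝ} (h : Adm sc S ξ t)
    {J : Set ℝ} (hJ : MeasurableSet J) (hfin : volume J ≠ ⊤) (r : L → V → ℝ) (v : V) :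
    |fn r S ξ v - fn r S (fun l => Jᶜ.indicator (ξ l)) v| ≤ (∑ l ∈ S, t l) * volume.real J := by
  unfold fn
  rw [← sum_sub_distrib, sum_mul]
  refine (abs_sum_le_sum_abs _ _).trans (sum_le_sum fun l _ => ?_)
  have h' := h.mask hJ.compl
  rw [← intervalIntegral.integral_sub (intInt (h.meas l) (h.le l) _ _)
    (intInt (h'.meas l) (h'.le l) _ _)]
  have e : ∀ x, ξ l x - Jᶜ.indicator (ξ l) x = J.indicator (ξ l) x := by
    intro x
    by_cases hx : x ∈ J <;> simp [hx]
  simp only [e]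
  rw [intervalIntegral.abs_integral_eq_abs_integral_uIoc, setIntegral_indicator hJ]
  have hlt : volume (Set.uIoc 0 (r l v) ∩ J) < ⊤ :=
    (measure_mono Set.inter_subset_right).trans_lt hfin.lt_top
  refine (norm_setIntegral_le_of_norm_le_const (f := ξ l) hlt fun x _ => h.le l x).trans ?_
  exact mul_le_mul_of_nonneg_left (measureReal_mono Set.inter_subset_right hfin) (h.nonneg l)

theorem var_mask_eq_zero {S : Finset L} (ξ : L → ℝ → ℝ) {J : Set ℝ} {r : L → V → ℝ} {u v : V}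
    (h : ∀ l ∈ S, Set.uIcc (r l v) (r l u) ⊆ J) :
    var r S (fun l => Jᶜ.indicator (ξ l)) u v = 0 := by
  refine sum_eq_zero fun l hl => ?_
  rw [intervalIntegral.integral_congr (g := fun _ => 0) fun x hx => by simp [h l hl hx]]
  simp

theorem geom_Ioc {a b : ℕ} (h : a ≤ b) :
    ∑ k ∈ Ioc a b, (1 / 2 : ℝ) ^ k = (1 / 2) ^ a - (1 / 2) ^ b := by
  induction b, h using Nat.le_induction with
  | base => simp
  | succ b hb ih =>
    rw [sum_Ioc_succ_top hb, ih]
    ring

end Crest.Agent.R91
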